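import Vale.Agent.P230.Config

/-! Existence of a convex body that no sparse finite configuration can use to cover the ball. -/

namespace Vale.Agent.P230

open MeasureTheory Real Finset Metric
open scoped ENNReal RealInnerProductSpace Topology

/-- The ball cut by the chosen half-spaces. -/
def cutBody {n : ℕ} {Ω : Type} (vec : Ω → En n) (T : ℝ) (ω : Finset Ω) : Set (En n) :=
  closedBall 0 1 ∩ ⋂ a ∈ ω, {x | ⟪x, vec a⟫ ≤ T}

theorem cutBody_compact {n : ℕ} {Ω : Type} (vec : Ω → En n) (T : ℝ) (ω : Finset Ω) :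
    IsCompact (cutBody vec T ω) :=
  (isCompact_closedBall _ _).inter_right
    (isClosed_biInter fun _ _ => isClosed_le (by fun_prop) continuous_const)

theorem cutBody_convex {n : ℕ} {Ω : Type} (vec : Ω → En n) (T : ℝ) (ω : Finset Ω) :
    Convex ℝ (cutBody vec T ω) := by
  refine (convex_closedBall _ _).inter (convex_iInter₂ fun a _ => ?_)
  exact convex_halfSpace_le ⟨fun x y => inner_add_left _ _ _, fun c x => real_inner_smul_left _ _ _⟩ T

theorem cutBody_interior {n : ℕ} {Ω : Type} (vec : Ω → En n) {T : ℝ} (hT : 0 < T) (ω : Finset Ω) :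
    (interior (cutBody vec T ω)).Nonempty := by
  refine ⟨0, mem_interior_iff_mem_nhds.2 (Filter.inter_mem (closedBall_mem_nhds _ one_pos) ?_)⟩
  refine (Filter.biInter_finset_mem _).2 fun a _ => ?_
  have : IsOpen {x : En n | ⟪x, vec a⟫ < T} := isOpen_lt (by fun_prop) continuous_const
  exact Filter.mem_of_superset (this.mem_nhds (by simpa using hT)) fun x (hx : _ < T) => (le_of_lt hx : _ ≤ T)

open Classical in
theorem Ex_removed {n : ℕ} {Ω : Type} [Fintype Ω] {p : Ω → ℝ} {vec : Ω → En n}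
    (h0 : ∀ a, 0 < p a) (h1 : ∀ a, p a ≤ 1) {T : ℝ}
    (hU : ∀ x : En n, ‖x‖ ≤ 1 → lam p (univ.filter fun a => T < ⟪x, vec a⟫) ≤ 1 / 2) :
    Ex p (fun ω => volume.real (closedBall (0 : En n) 1 \ cutBody vec T ω))
      ≤ (vB n).toReal / 2 := by
  set B := closedBall (0 : En n) 1 with hB
  have hBm : MeasurableSet B := measurableSet_closedBall
  have hBf : volume B ≠ ∞ := measure_closedBall_lt_top.ne
  have hm : ∀ a, MeasurableSet {x : En n | T < ⟪x, vec a⟫} := fun a =>
    (isOpen_lt continuous_const (by fun_prop)).measurableSet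
  set c : Ω → ℝ := fun a => volume.real ({x : En n | T < ⟪x, vec a⟫} ∩ B) with hc
  have a1 : ∀ ω : Finset Ω, volume.real (B \ cutBody vec T ω)
      ≤ ∑ a, c a * (if {a} ⊆ ω then 1 else 0) := by
    intro ω
    have hsub : B \ cutBody vec T ω ⊆ ⋃ a ∈ ω, ({x : En n | T < ⟪x, vec a⟫} ∩ B) := by
      rintro x ⟨hx, hx2⟩
      by_contra hcon
      refine hx2 ⟨hx, Set.mem_iInter₂.2 fun a ha => ?_⟩
      by_contra h3
      exact hcon (Set.mem_iUnion₂.2 ⟨a, ha, (not_le.1 h3 : T < _), hx⟩)
    refine (measureReal_mono hsub ?_).trans ((measureReal_biUnion_finset_le _ _).trans ?_)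
    · exact ne_top_of_le_ne_top hBf (measure_mono (Set.iUnion₂_subset fun _ _ =>
        Set.inter_subset_right))
    · simp [hc]
  refine (Ex_mono h0 h1 a1).trans ?_
  rw [Ex_sum]
  simp_rw [Ex_const_mul, Ex_subset, prod_singleton]
  have a2 : ∀ a, c a * p a = ∫ x in B, Set.indicator {x : En n | T < ⟪x, vec a⟫} (fun _ => p a) x := by
    intro a
    rw [integral_indicator (hm a), setIntegral_const, measureReal_restrict_apply (hm a), smul_eq_mul]
  have : IsFiniteMeasure (volume.restrict B) := isFiniteMeasure_restrict.2 hBf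
  have hint : ∀ a, Integrable (Set.indicator {x : En n | T < ⟪x, vec a⟫} (fun _ => p a))
      (volume.restrict B) := fun a => (integrable_const _).indicator (hm a)
  simp_rw [a2]
  rw [← integral_finsetSum _ fun a _ => hint a]
  calc _ ≤ ∫ _x in B, (1 / 2 : ℝ) := by
        refine setIntegral_mono_on (integrable_finsetSum _ fun a _ => hint a)
          (integrable_const _) hBm fun x hx => ?_
        refine le_trans (le_of_eq ?_) (hU x (by simpa [hB] using hx))
        rw [lam, sum_filter]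
        exact sum_congr rfl fun a _ => by simp [Set.indicator]
    _ = _ := by
        rw [setIntegral_const, smul_eq_mul, vB]; rw [measureReal_def]; ring

theorem card_small_subsets {α : Type} [DecidableEq α] (A : Finset α) (hA : 1 ≤ A.card) (N : ℕ) :
    (A.powerset.filter (fun Y => Y.card ≤ N)).card ≤ (N + 1) * A.card ^ N := by
  have hsub : A.powerset.filter (fun Y => Y.card ≤ N)
      ⊆ (range (N + 1)).biUnion (fun i => powersetCard i A) := by
    intro Y hY
    have := mem_filter.1 hY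
    exact mem_biUnion.2 ⟨Y.card, mem_range.2 (by omega),
      mem_powersetCard.2 ⟨mem_powerset.1 this.1, rfl⟩⟩
  refine (card_le_card hsub).trans (card_biUnion_le.trans ?_)
  refine (sum_le_card_nsmul _ _ (A.card ^ N) fun i hi => ?_).trans (by simp)
  rw [card_powersetCard]
  exact (Nat.choose_le_pow _ _).trans
    (Nat.pow_le_pow_right hA (Nat.lt_succ_iff.1 (mem_range.1 hi)))

theorem kap_mono {n : ℕ} {r r' : ℝ} {z z' : En n} (h : ‖z‖ - r ≤ ‖z'‖ - r') :
    kap r' z' ≤ kap r z := by
  classical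
  refine card_le_card fun j hj => ?_
  have := mem_filter.1 hj
  exact mem_filter.2 ⟨this.1, by linarith [this.2]⟩

theorem Good_image {n : ℕ} (X : Finset (En n)) (f : En n → En n) {η dep k0 : ℝ}
    (hf : ∀ x, ‖f x - x‖ ≤ η) [DecidableEq (En n)] :
    Good X (2 * η) (dep - η) k0 ⊆ Good (X.image f) η dep k0 := by
  intro y hy
  have key : ∀ x, ‖y - x‖ ≤ ‖y - f x‖ + η := by
    intro x
    have : y - x = (y - f x) + (f x - x) := by abel
    rw [this]
    exact (norm_add_le _ _).trans (by linarith [hf x])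
  refine ⟨le_trans ?_ hy.1, fun x' hx' => ?_⟩
  · refine (sum_image_le_of_nonneg fun _ _ => by positivity).trans (sum_le_sum fun x _ => ?_)
    exact_mod_cast kap_mono (by linarith [key x])
  · obtain ⟨x, hx, rfl⟩ := mem_image.1 hx'
    linarith [key x, hy.2 x hx]

theorem card_box (n : ℕ) (m : ℕ) : (box n (2 * m : ℕ)).card = (4 * m + 1) ^ n := by
  rw [box, Fintype.card_piFinset, prod_const, card_univ, Fintype.card_fin, Int.card_Icc]
  congr 1
  omega

theorem exists_body {n : ℕ} {s : ℝ} (hs : 1024 ≤ s) (hsn : s ^ 4 = n) {N : ℕ} (hN0 : 0 < N) {k0 : ℝ}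
    {L : ℕ} (hL0 : 0 < L) (hL : L * ((N : ℝ) ^ 2 * (1 / s) ^ n) ≤ 1 / 8)
    (hb : k0 ^ 2 * (32 * exp (56 + 65536 * s - 256 * s ^ 2)) ≤ 1)
    (hnum : (((N + 1) * (4 * (24576 * n ^ 2) + 1) ^ (n * N) : ℕ) : ℝ) *
      exp (-(1 / (3 * (exp (32800 * k0) / L + 16 * ((N : ℝ) ^ 2 * (1 / 16) ^ n)
        + 2 * (k0 ^ 2 * (32 * exp (56 + 65536 * s - n))))))) < 1 / 3) :
    ∃ K : Set (En n), IsCompact K ∧ Convex ℝ K ∧ (interior K).Nonempty ∧
      K ⊆ closedBall 0 1 ∧ ENNReal.ofReal (1 / 4) * vB n ≤ volume K ∧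
      ∀ X : Finset (En n), X.card ≤ N → (∀ x ∈ X, ‖x‖ ≤ 2) →
        volume (closedBall (0 : En n) 1 \ Good X (2 * (1 / (64 * s ^ 2) ^ 2))
          (1 / s ^ 3 - 1 / (64 * s ^ 2) ^ 2) k0) ≤ ENNReal.ofReal (1 / 2) * vB n →
        ¬ ∀ y ∈ closedBall (0 : En n) 1, ∃ x ∈ X, y - x ∈ K := by
  classical
  set t := 64 * s ^ 2 with ht
  have hs0 : 0 < s := by linarith
  have hs2 : 1024 ^ 2 ≤ s ^ 2 := by gcongr
  have ht1 : 64 ≤ t := by nlinarith
  have ht0 : 0 < t := by linarith
  have ht2 : t ^ 2 = 4096 * n := by rw [ht, ← hsn]; ring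
  have hn1' : (1 : ℝ) ≤ n := by rw [← hsn]; exact one_le_pow₀ (by linarith)
  have hn1 : 1 ≤ n := by exact_mod_cast hn1'
  have hsq : √(n : ℝ) = s ^ 2 := by
    rw [← hsn, show s ^ 4 = (s ^ 2) ^ 2 by ring, sqrt_sq (by positivity)]
  obtain ⟨Ω, _, p, vec, h0, h1, hvec, hU, hLo⟩ := exists_cuts n hn1 (t := t) (by linarith)
    (by linarith [add_one_le_exp (4 * t ^ 2)])
  set m : ℕ := 24576 * n ^ 2 with hm
  have hm' : (m : ℝ) = 6 * t ^ 2 * s ^ 4 := by rw [hm, ht2, hsn]; push_cast; ring
  have hm0 : (0 : ℝ) < m := by rw [hm']; positivity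
  set δ : ℝ := 1 / m with hδ
  have hδ0 : 0 < δ := by positivity
  have herr : ∀ x : En n, ‖pt δ (fl δ x) - x‖ ≤ 1 / (6 * t ^ 2 * s ^ 2) := by
    intro x
    refine (norm_pt_fl hδ0 x).trans (le_of_eq ?_)
    rw [hsq, hδ, hm']; field_simp
  have herr2 : ∀ x : En n, ‖pt δ (fl δ x) - x‖ ≤ 1 / t ^ 2 := fun x =>
    (herr x).trans (one_div_le_one_div_of_le (by positivity) (by nlinarith))
  set adm := ((box n (2 * m : ℕ)).powerset.filter (fun Y => Y.card ≤ N)).filter (fun Y =>
    volume (closedBall (0 : En n) 1 \ Good (Y.image (pt δ)) (1 / t ^ 2) (1 / s ^ 3) k0)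
      ≤ ENNReal.ofReal (1 / 2) * vB n) with hadm
  have hv0 : 0 < (vB n).toReal := ENNReal.toReal_pos (vB_ne_zero n) (vB_ne_top n)
  set f : Finset Ω → ℝ := fun ω =>
    (4 / 3 / (vB n).toReal) * volume.real (closedBall (0 : En n) 1 \ cutBody vec (t + 2 / t) ω)
      + ∑ Y ∈ adm, if Cov vec (Y.image (pt δ)) (1 / t ^ 2) (t + 3 / t) ω then 1 else 0 with hf
  have hE : Ex p f < 1 := by
    rw [hf, Ex_add, Ex_const_mul, Ex_sum]
    have a1 := Ex_removed h0 h1 (vec := vec) (T := t + 2 / t) (fun x hx => by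
      have := hU x (t + 2 / t) 0 le_rfl (by
        have c1 : 1 / (2 * t) ≤ 2 / t := by
          rw [div_le_div_iff₀ (by positivity) ht0]; linarith
        have c2 : 0 < 1 / (2 * t) := by positivity
        nlinarith)
      simpa using this)
    have a2 : (4 / 3 / (vB n).toReal) * Ex p (fun ω =>
        volume.real (closedBall (0 : En n) 1 \ cutBody vec (t + 2 / t) ω)) ≤ 2 / 3 := by
      refine (mul_le_mul_of_nonneg_left a1 (by positivity)).trans (le_of_eq ?_)
      field_simp; norm_num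
    have a3 := sum_le_card_nsmul adm _ _ fun Y hY => config_bound hs hsn h0 h1 ht hU hLo
      (Y.image (pt δ)) (N := N) (k0 := k0)
      (by exact_mod_cast card_image_le.trans (mem_filter.1 (mem_filter.1 hY).1).2)
      (by exact_mod_cast hN0) (mem_filter.1 hY).2 hL0 hL hb
    have a4 : adm.card ≤ (N + 1) * (4 * m + 1) ^ (n * N) := by
      refine (card_filter_le _ _).trans ((card_small_subsets _ ?_ N).trans ?_)
      · rw [card_box]; exact Nat.one_le_pow _ _ (by omega)
      · rw [card_box, ← pow_mul]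
    rw [nsmul_eq_mul] at a3
    have a5 := lt_of_le_of_lt (a3.trans (mul_le_mul_of_nonneg_right
      (by exact_mod_cast a4) (exp_pos _).le)) hnum
    linarith
  obtain ⟨ω, hω⟩ : ∃ ω, f ω < 1 := by
    by_contra hcon
    push Not at hcon
    have := Ex_mono h0 h1 (f := fun _ => 1) hcon
    rw [Ex_const] at this
    linarith
  have hite : ∀ Y ∈ adm, (0 : ℝ) ≤
      if Cov vec (Y.image (pt δ)) (1 / t ^ 2) (t + 3 / t) ω then 1 else 0 := fun Y _ => by
    split_ifs <;> norm_num
  have hf1 : 0 ≤ (4 / 3 / (vB n).toReal) *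
      volume.real (closedBall (0 : En n) 1 \ cutBody vec (t + 2 / t) ω) := by positivity
  refine ⟨cutBody vec (t + 2 / t) ω, cutBody_compact _ _ _, cutBody_convex _ _ _,
    cutBody_interior _ (by positivity) _, Set.inter_subset_left, ?_, fun X hX1 hX2 hX3 hcov => ?_⟩
  · have a1 : volume.real (closedBall (0 : En n) 1 \ cutBody vec (t + 2 / t) ω)
        ≤ 3 / 4 * (vB n).toReal := by
      have := sum_nonneg hite
      have b1 : (4 / 3 / (vB n).toReal) *
        volume.real (closedBall (0 : En n) 1 \ cutBody vec (t + 2 / t) ω) ≤ 1 := by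
          simp only [hf] at hω; linarith
      rw [div_mul_eq_mul_div, div_le_one hv0] at b1
      linarith
    have a2 : (vB n).toReal ≤ volume.real (cutBody vec (t + 2 / t) ω)
        + volume.real (closedBall (0 : En n) 1 \ cutBody vec (t + 2 / t) ω) := by
      refine le_trans ?_ (measureReal_union_le _ _)
      rw [Set.union_sdiff_cancel (show cutBody vec (t + 2 / t) ω ⊆ closedBall 0 1 from
        Set.inter_subset_left)]
      exact le_rfl
    rw [← ENNReal.ofReal_toReal (vB_ne_top n), ← ENNReal.ofReal_mul (by norm_num)]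
    exact ENNReal.ofReal_le_of_le_toReal (by rw [← measureReal_def]; linarith)
  · set Y := X.image (fl δ) with hY
    have hYe : Y.image (pt δ) = X.image (fun x => pt δ (fl δ x)) := by rw [hY, image_image]; rfl
    have hYa : Y ∈ adm := by
      refine mem_filter.2 ⟨mem_filter.2 ⟨mem_powerset.2 fun k hk => ?_, card_image_le.trans hX1⟩, ?_⟩
      · obtain ⟨x, hx, rfl⟩ := mem_image.1 hk
        refine fl_mem_box hδ0 (c := 2) (le_of_eq ?_) x fun i => ?_
        · rw [hδ]; push_cast; field_simp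
        · exact (PiLp.norm_apply_le x i).trans (hX2 x hx)
      · refine le_trans (measure_mono (Set.sdiff_subset_sdiff_right ?_)) hX3
        rw [hYe]
        exact Good_image X _ herr2
    have hC : Cov vec (Y.image (pt δ)) (1 / t ^ 2) (t + 3 / t) ω := by
      intro y hy
      obtain ⟨x, hx, hK⟩ := hcov y hy
      refine ⟨pt δ (fl δ x), by rw [hYe]; exact mem_image_of_mem _ hx, ?_, fun a ha => ?_⟩
      · have e : y - pt δ (fl δ x) = (y - x) - (pt δ (fl δ x) - x) := by abel
        have : ‖y - x‖ ≤ 1 := by simpa using hK.1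
        rw [e]
        exact (norm_sub_le _ _).trans (add_le_add this (herr2 x))
      · have e : y - pt δ (fl δ x) = (y - x) - (pt δ (fl δ x) - x) := by abel
        have b1 : ⟪y - x, vec a⟫ ≤ t + 2 / t := Set.mem_iInter₂.1 hK.2 a ha
        have b2 := abs_real_inner_le_norm (pt δ (fl δ x) - x) (vec a)
        have b3 : ‖pt δ (fl δ x) - x‖ * ‖vec a‖ ≤ 1 / t := by
          calc _ ≤ 1 / (6 * t ^ 2 * s ^ 2) * (6 * t * √n) := by
                gcongr
                · exact herr x
                · exact hvec a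
            _ = _ := by rw [hsq]; field_simp
        rw [e, inner_sub_left]
        have b4 : 3 / t = 2 / t + 1 / t := by ring
        linarith [(abs_le.1 (b2.trans b3)).1]
    have := single_le_sum hite hYa
    rw [if_pos hC] at this
    simp only [hf] at hω
    linarith

end Vale.Agent.P230
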