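import Vale.Agent.P230.Witness

/-! Probability that no test point has all of its sets hit. -/

namespace Vale.Agent.P230

open Finset Real

set_option linter.unusedSectionVars false

variable {Ω : Type} [Fintype Ω] [DecidableEq Ω] {ι : Type}

open Classical in
theorem cover_bound {p : Ω → ℝ} (h0 : ∀ a, 0 < p a) (h1 : ∀ a, p a ≤ 1) {L : ℕ} (hL : 0 < L)
    (I : Fin L → Finset ι) (R : Fin L → ι → Finset Ω)
    (hl : ∀ i, ∀ j ∈ I i, 0 < lam p (R i j)) (D : Fin L → Fin L → ℝ)
    (hdiag : ∀ i, 2 ^ (I i).card * ∏ j ∈ I i, (1 + (lam p (R i j))⁻¹) ≤ D i i)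
    (hoff : ∀ i i', i ≠ i' → exp (∑ j' ∈ I i', ∑ j ∈ I i,
      lam p (R i j ∩ R i' j') * (lam p (R i j))⁻¹ * (lam p (R i' j'))⁻¹) - 1 ≤ D i i')
    {Δ : ℝ} (hΔ0 : 0 < Δ) (hΔ : ∑ i, ∑ i', D i i' ≤ (L : ℝ) ^ 2 * Δ) :
    Ex p (fun ω => if ∀ i, ∃ j ∈ I i, Disjoint ω (R i j) then 1 else 0)
      ≤ exp (-(1 / (3 * Δ))) := by
  choose ν hν0 hν1 hν2 hν3 hν4 hν5 using fun i => exists_witness h0 h1 (R i) (I i) (hl i)
  have hL' : (0 : ℝ) < L := by exact_mod_cast hL
  have hp1 : ∀ a, 1 ≤ (p a)⁻¹ := fun a => (one_le_inv₀ (h0 a)).2 (h1 a)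
  have hinv : ∀ A, 0 ≤ (lam p A)⁻¹ := fun A => inv_nonneg.2 (lam_nonneg h0 _)
  set wt : Finset Ω → ℝ := fun S => (L : ℝ)⁻¹ * ∑ i, ν i S with hwt
  have pair : ∀ i i', ∑ S, ∑ S', ν i S * ν i' S' * ov p S S' ≤ D i i' := by
    intro i i'
    rw [sum_comm]
    by_cases h : i = i'
    · subst h
      refine le_trans ?_ (hdiag i)
      calc _ ≤ ∑ S', ν i S' * (2 ^ (I i).card * ∏ j ∈ I i, (1 + (lam p (R i j))⁻¹)) := by
            refine sum_le_sum fun S' _ => ?_
            by_cases hS : ν i S' = 0
            · simp [hS]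
            have a1 : ∑ S, ν i S * ν i S' * ov p S S'
                ≤ ν i S' * ∑ S, ν i S * ∏ a ∈ S ∩ S', (p a)⁻¹ := by
              rw [mul_sum]
              refine sum_le_sum fun S _ => ?_
              have : ov p S S' ≤ ∏ a ∈ S ∩ S', (p a)⁻¹ := by
                unfold ov; split_ifs
                · exact prod_nonneg fun a _ => by linarith [hp1 a]
                · exact le_rfl
              calc _ ≤ ν i S * ν i S' * ∏ a ∈ S ∩ S', (p a)⁻¹ :=
                    mul_le_mul_of_nonneg_left this (mul_nonneg (hν0 _ _) (hν0 _ _))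
                _ = _ := by ring
            refine a1.trans (mul_le_mul_of_nonneg_left ((hν5 i S').trans ?_) (hν0 _ _))
            refine mul_le_mul_of_nonneg_right (pow_le_pow_right₀ (by norm_num) (hν2 i S' hS).2) ?_
            exact prod_nonneg fun j _ => by linarith [hinv (R i j)]
        _ = _ := by rw [← sum_mul, hν1, one_mul]
    · refine le_trans ?_ (hoff i i' h)
      set H : Ω → ℝ := fun a => ∑ j ∈ I i, if a ∈ R i j then (lam p (R i j))⁻¹ else 0 with hH
      have hH0 : ∀ a, 0 ≤ H a := fun a => sum_nonneg fun j _ => by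
        split_ifs
        · exact hinv _
        · exact le_rfl
      calc _ ≤ ∑ S', ν i' S' * (∏ a ∈ S', (1 + H a) - 1) := by
            refine sum_le_sum fun S' _ => ?_
            have a1 : ∑ S, ν i S * ν i' S' * ov p S S'
                ≤ ν i' S' * ∑ S, ν i S * (∏ a ∈ S ∩ S', (1 + (p a)⁻¹) - 1) := by
              rw [mul_sum]
              refine sum_le_sum fun S _ => ?_
              have : ov p S S' ≤ ∏ a ∈ S ∩ S', (1 + (p a)⁻¹) - 1 := by
                unfold ov; split_ifs with hd
                · rw [disjoint_iff_inter_eq_empty.1 hd]; simp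
                · obtain ⟨b, hb⟩ := nonempty_iff_ne_empty.2
                    (fun h => hd (disjoint_iff_inter_eq_empty.2 h))
                  rw [← mul_prod_erase _ _ hb, ← mul_prod_erase _ _ hb]
                  have c1 : ∏ a ∈ (S ∩ S').erase b, (p a)⁻¹
                      ≤ ∏ a ∈ (S ∩ S').erase b, (1 + (p a)⁻¹) :=
                    prod_le_prod (fun a _ => by linarith [hp1 a]) (fun a _ => by linarith)
                  have c2 : 1 ≤ ∏ a ∈ (S ∩ S').erase b, (p a)⁻¹ :=
                    Finset.one_le_prod fun a _ => hp1 a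
                  nlinarith [hp1 b]
              calc _ ≤ ν i S * ν i' S' * (∏ a ∈ S ∩ S', (1 + (p a)⁻¹) - 1) :=
                    mul_le_mul_of_nonneg_left this (mul_nonneg (hν0 _ _) (hν0 _ _))
                _ = _ := by ring
            refine a1.trans (mul_le_mul_of_nonneg_left ?_ (hν0 _ _))
            simp_rw [mul_sub, sum_sub_distrib, mul_one, hν1]
            linarith [hν4 i S']
        _ ≤ _ := by
            simp_rw [mul_sub, sum_sub_distrib, mul_one, hν1]
            refine sub_le_sub_right ((hν3 i' H hH0).trans ?_) 1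
            rw [exp_sum]
            refine prod_le_prod (fun j _ => ?_) fun j' _ => ?_
            · have := mul_nonneg (sum_nonneg fun a (_ : a ∈ R i' j) =>
                mul_nonneg (h0 a).le (hH0 a)) (hinv (R i' j))
              linarith
            · have e : (∑ a ∈ R i' j', p a * H a) * (lam p (R i' j'))⁻¹ = ∑ j ∈ I i,
                  lam p (R i j ∩ R i' j') * (lam p (R i j))⁻¹ * (lam p (R i' j'))⁻¹ := by
                rw [← sum_mul]
                congr 1
                simp only [hH, mul_sum]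
                rw [sum_comm]
                refine sum_congr rfl fun j _ => ?_
                simp_rw [mul_ite, mul_zero]
                rw [← sum_filter, filter_mem_eq_inter, inter_comm, ← sum_mul]
                rfl
              rw [e, add_comm]
              exact add_one_le_exp _
  have hj := janson h0 h1 wt (fun S => mul_nonneg (inv_pos.2 hL').le (sum_nonneg fun i _ => hν0 i S))
    (by
      simp only [hwt]
      rw [← mul_sum, sum_comm]
      simp only [hν1, sum_const, card_univ, Fintype.card_fin, nsmul_eq_mul, mul_one]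
      exact inv_mul_cancel₀ hL'.ne') hΔ0
    (by
      have e : ∑ S, ∑ S', wt S * wt S' * ov p S S'
          = ((L : ℝ) ^ 2)⁻¹ * ∑ i, ∑ i', ∑ S, ∑ S', ν i S * ν i' S' * ov p S S' := by
        have e1 : ∀ S S', wt S * wt S' * ov p S S'
            = ((L : ℝ) ^ 2)⁻¹ * ∑ i, ∑ i', ν i S * ν i' S' * ov p S S' := by
          intro S S'
          simp only [hwt]
          simp_rw [← sum_mul]
          rw [← sum_mul_sum]
          ring
        simp_rw [e1, ← mul_sum]
        congr 1
        calc _ = ∑ S, ∑ i, ∑ S', ∑ i', ν i S * ν i' S' * ov p S S' :=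
              sum_congr rfl fun S _ => sum_comm
          _ = ∑ i, ∑ S, ∑ S', ∑ i', ν i S * ν i' S' * ov p S S' := sum_comm
          _ = ∑ i, ∑ S, ∑ i', ∑ S', ν i S * ν i' S' * ov p S S' :=
              sum_congr rfl fun i _ => sum_congr rfl fun S _ => sum_comm
          _ = _ := sum_congr rfl fun i _ => sum_comm
      rw [e, inv_mul_le_iff₀ (by positivity)]
      exact le_trans (sum_le_sum fun i _ => sum_le_sum fun i' _ => pair i i') hΔ)
  refine le_trans (Ex_mono h0 h1 fun ω => ?_) hj
  split_ifs with c1 c2 c2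
  · exact le_rfl
  · exfalso
    refine c2 fun S hS hsub => ?_
    obtain ⟨i, _, hi⟩ := exists_ne_zero_of_sum_ne_zero (right_ne_zero_of_mul hS)
    obtain ⟨j, hj, hd⟩ := c1 i
    exact (hν2 i S hi).1 j hj (hd.mono_left hsub)
  · exact zero_le_one
  · exact le_rfl

end Vale.Agent.P230
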