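import Vale.Agent.P230.Tests
import Vale.Agent.P230.CoverBound

/-! Probability that one fixed finite configuration covers the unit ball. -/

namespace Vale.Agent.P230

open MeasureTheory Real Finset Metric
open scoped ENNReal RealInnerProductSpace

open Classical in
/-- Number of the balls of radii `r0 - j / n` that contain `z`. -/
noncomputable def kap {n : ℕ} (r0 : ℝ) (z : En n) : ℕ :=
  ((range (n + 1)).filter (fun j : ℕ => ‖z‖ ≤ r0 - j / n)).card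

theorem one_le_kap {n : ℕ} {r0 : ℝ} {z : En n} (h : ‖z‖ ≤ r0) : 1 ≤ kap r0 z := by
  classical
  exact card_pos.2 ⟨0, mem_filter.2 ⟨by simp, by simpa using h⟩⟩

theorem depth_le_kap {n : ℕ} (hn : 1 ≤ n) {r0 : ℝ} (hr : 1 ≤ r0) (z : En n) :
    n * max (1 - ‖z‖) 0 ≤ kap r0 z := by
  classical
  have hn' : (0 : ℝ) < n := by exact_mod_cast hn
  rcases le_total (1 - ‖z‖) 0 with h | h
  · rw [max_eq_right h, mul_zero]; positivity
  rw [max_eq_left h]
  set m := ⌊(n : ℝ) * (1 - ‖z‖)⌋₊ with hm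
  have h1 : (m : ℝ) ≤ n * (1 - ‖z‖) := Nat.floor_le (by positivity)
  have h2 : (n : ℝ) * (1 - ‖z‖) < m + 1 := Nat.lt_floor_add_one _
  have h3 : range (m + 1) ⊆ (range (n + 1)).filter (fun j : ℕ => ‖z‖ ≤ r0 - j / n) := by
    intro j hj
    have hj' : (j : ℝ) ≤ m := by exact_mod_cast Nat.lt_succ_iff.1 (mem_range.1 hj)
    have h4 : (j : ℝ) ≤ n := by nlinarith [norm_nonneg z]
    refine mem_filter.2 ⟨mem_range.2 (Nat.lt_succ_iff.2 (by exact_mod_cast h4)), ?_⟩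
    have : (j : ℝ) / n ≤ 1 - ‖z‖ := by rw [div_le_iff₀ hn']; linarith
    linarith
  have h4 : ((m + 1 : ℕ) : ℝ) ≤ kap r0 z := by
    have := card_le_card h3
    rw [card_range] at this
    exact_mod_cast this
  push_cast at h4
  linarith

def Good {n : ℕ} (X : Finset (En n)) (η dep k0 : ℝ) : Set (En n) :=
  {y | (∑ x ∈ X, (kap (1 + η) (y - x) : ℝ)) ≤ k0 ∧ ∀ x ∈ X, 1 - dep ≤ ‖y - x‖}

def Cov {n : ℕ} {Ω : Type} (vec : Ω → En n) (X : Finset (En n)) (η T : ℝ) (ω : Finset Ω) : Prop :=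
  ∀ y ∈ closedBall (0 : En n) 1, ∃ x ∈ X, ‖y - x‖ ≤ 1 + η ∧ ∀ a ∈ ω, ⟪y - x, vec a⟫ ≤ T

theorem norm_add_le_of_far {n : ℕ} {z z' : En n} {η d : ℝ} (hη0 : 0 ≤ η) (hη1 : η ≤ 1)
    (hd0 : 0 ≤ d) (hd1 : d ≤ 1) (hz : ‖z‖ ≤ 1 + η) (hz' : ‖z'‖ ≤ 1 + η) (h : d ≤ ‖z - z'‖) :
    ‖z + z'‖ ≤ 2 + 2 * η - d ^ 2 / 8 := by
  have h1 := parallelogram_law_with_norm ℝ z z'
  have h2 : ‖z‖ ^ 2 ≤ (1 + η) ^ 2 := pow_le_pow_left₀ (norm_nonneg _) hz 2
  have h3 : ‖z'‖ ^ 2 ≤ (1 + η) ^ 2 := pow_le_pow_left₀ (norm_nonneg _) hz' 2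
  have h4 : d ^ 2 ≤ ‖z - z'‖ ^ 2 := pow_le_pow_left₀ hd0 h 2
  have h5 : d ^ 2 ≤ 1 := by nlinarith
  refine abs_le_of_sq_le_sq' ?_ (by nlinarith) |>.2
  nlinarith [sq_nonneg (d ^ 2), sq_nonneg d]

theorem num_low {t ρ e : ℝ} (ht : 0 < t) (e0 : 0 ≤ e) (e1 : 1 - ρ ≤ e) (hρ : 1 / 2 ≤ ρ) :
    t + 3 / t ≤ (t + (7 * (1 / t) + 2 * t * e) - 1 / (2 * t)) * ρ := by
  have b1 : 1 / (2 * t) = (1 / t) / 2 := by field_simp
  have b2 : 3 / t = 3 * (1 / t) := by ring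
  have hti0 : 0 < 1 / t := by positivity
  rw [b1, b2]
  nlinarith [mul_nonneg (mul_nonneg ht.le e0) (show 0 ≤ ρ - 1 / 2 by linarith),
    mul_nonneg hti0.le (show 0 ≤ ρ - 1 / 2 by linarith),
    mul_nonneg ht.le (show 0 ≤ e - (1 - ρ) by linarith)]

theorem num_u {t e : ℝ} (ht : 64 ≤ t) (e2 : e ≤ 1 / 2) : 7 * (1 / t) + 2 * t * e ≤ 3 * t := by
  have hti : 1 / t ≤ 1 / 64 := one_div_le_one_div_of_le (by norm_num) ht
  nlinarith

theorem num_pair {t d : ℝ} (ht : 1 ≤ t) (hd0 : 0 ≤ d) (hd1 : d ≤ 1) :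
    (t + t * d ^ 2 / 16 + 1 / (2 * t)) * (2 + 2 * (1 / t ^ 2) - d ^ 2 / 8) ≤ 2 * (t + 3 / t) := by
  have ht0 : 0 < t := by linarith
  have hd2 : d ^ 2 ≤ 1 := by nlinarith
  have c1 : 1 / (2 * t) = (1 / t) / 2 := by field_simp
  have c2 : 3 / t = 3 * (1 / t) := by ring
  have hη1 : 1 / t ^ 2 ≤ 1 := by rw [div_le_one (by positivity)]; nlinarith
  have htη : t * (1 / t ^ 2) = 1 / t := by field_simp
  have hti0 : 0 < 1 / t := by positivity
  rw [c1, c2]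
  generalize 1 / t ^ 2 = η at *
  generalize 1 / t = τ at *
  have c3 : t * η * d ^ 2 ≤ τ := by rw [htη]; nlinarith
  have c4 : 0 ≤ t * d ^ 2 * d ^ 2 := by positivity
  have c5 : τ * η ≤ τ := by nlinarith
  have c6 : 0 ≤ τ * d ^ 2 := by positivity
  nlinarith

theorem exp_four : 18 ≤ exp (4 : ℝ) := by
  have e : exp (4 : ℝ) = exp 1 ^ 4 := by rw [← exp_nat_mul]; norm_num
  have := exp_one_gt_d9
  rw [e]
  calc (18 : ℝ) ≤ 2.7 ^ 4 := by norm_num
    _ ≤ _ := by gcongr; linarith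

theorem exp_sub_one_le {x c : ℝ} (h0 : 0 ≤ x) (h1 : x ≤ c) (h2 : c ≤ 1) : exp x - 1 ≤ 2 * c := by
  have := Real.abs_exp_sub_one_le (x := x) (by rw [abs_of_nonneg h0]; linarith)
  rw [abs_of_nonneg h0] at this
  linarith [le_abs_self (exp x - 1)]

open Classical in
theorem lam_low {n : ℕ} {Ω : Type} [Fintype Ω] {p : Ω → ℝ} {vec : Ω → En n} {t : ℝ}
    (ht1 : 64 ≤ t) (ht2 : t ^ 2 = 4096 * n)
    (hLo : ∀ (w : En n) (s u : ℝ), w ≠ 0 → 0 ≤ u → u ≤ 3 * t → s ≤ (t + u - 1 / (2 * t)) * ‖w‖ →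
        exp (-(4 * t * u)) / 8 ≤ lam p (univ.filter fun a => s < ⟪w, vec a⟫))
    {z : En n} (hz : 1 / 2 ≤ ‖z‖) :
    exp (-(28 + 32768 * (n * max (1 - ‖z‖) 0))) / 8
      ≤ lam p (univ.filter fun a => t + 3 / t < ⟪z, vec a⟫) := by
  have ht0 : 0 < t := by linarith
  set e := max (1 - ‖z‖) 0 with he
  have e0 : 0 ≤ e := le_max_right _ _
  have e1 : 1 - ‖z‖ ≤ e := le_max_left _ _
  have e2 : e ≤ 1 / 2 := max_le (by linarith) (by norm_num)
  have := hLo z (t + 3 / t) (7 * (1 / t) + 2 * t * e)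
    (norm_pos_iff.1 (by linarith)) (by positivity) (num_u ht1 e2) (num_low ht0 e0 e1 hz)
  have h2 : 4 * t * (7 * (1 / t) + 2 * t * e) = 28 + 32768 * (n * e) := by
    have : 4 * t * (7 * (1 / t) + 2 * t * e) = 28 + 8 * t ^ 2 * e := by field_simp; ring
    rw [this, ht2]; ring
  rwa [h2] at this

open Classical in
theorem lam_pair {n : ℕ} {Ω : Type} [Fintype Ω] {p : Ω → ℝ} {vec : Ω → En n} {t : ℝ}
    (h0 : ∀ a, 0 < p a) (ht1 : 64 ≤ t) (ht2 : t ^ 2 = 4096 * n)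
    (hU : ∀ (w : En n) (s u : ℝ), 0 ≤ u → (t + u + 1 / (2 * t)) * ‖w‖ ≤ s →
        lam p (univ.filter fun a => s < ⟪w, vec a⟫) ≤ exp (-(t * u)) / 2)
    {z z' : En n} {d : ℝ} (hd0 : 0 ≤ d) (hd1 : d ≤ 1) (hz : ‖z‖ ≤ 1 + 1 / t ^ 2)
    (hz' : ‖z'‖ ≤ 1 + 1 / t ^ 2) (h : d ≤ ‖z - z'‖) :
    lam p ((univ.filter fun a => t + 3 / t < ⟪z, vec a⟫) ∩
      (univ.filter fun a => t + 3 / t < ⟪z', vec a⟫)) ≤ exp (-(256 * n * d ^ 2)) / 2 := by
  have ht0 : 0 < t := by linarith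
  have hη1 : 1 / t ^ 2 ≤ 1 := by rw [div_le_one (by positivity)]; nlinarith
  have b2 := norm_add_le_of_far (by positivity) hη1 hd0 hd1 hz hz' h
  have b3 := hU (z + z') (2 * (t + 3 / t)) (t * d ^ 2 / 16) (by positivity)
    (le_trans (mul_le_mul_of_nonneg_left b2 (by positivity)) (num_pair (by linarith) hd0 hd1))
  have : -(256 * n * d ^ 2) = -(t * (t * d ^ 2 / 16)) := by
    have : t * (t * d ^ 2 / 16) = t ^ 2 * d ^ 2 / 16 := by ring
    rw [this, ht2]; ring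
  rw [this]
  refine le_trans (sum_le_sum_of_subset_of_nonneg (fun a ha => ?_)
    fun a _ _ => (h0 a).le) b3
  have c1 := (mem_filter.1 (mem_inter.1 ha).1).2
  have c2 := (mem_filter.1 (mem_inter.1 ha).2).2
  refine mem_filter.2 ⟨mem_univ _, ?_⟩
  rw [inner_add_left]
  linarith

theorem diag_factor {l e k : ℝ} (c1 : l ≤ 8 * exp (28 + 32768 * e)) (c2 : e ≤ k) (c3 : 1 ≤ k) :
    2 * (1 + l) ≤ exp (32800 * k) := by
  have c4 : exp (28 + 32768 * e) ≤ exp (28 + 32768 * k) := by gcongr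
  have c5 : 1 ≤ exp (28 + 32768 * k) := one_le_exp (by positivity)
  have c6 := exp_four
  calc _ ≤ 18 * exp (28 + 32768 * k) := by linarith
    _ ≤ exp 4 * exp (28 + 32768 * k) := by gcongr
    _ ≤ _ := by rw [← exp_add, exp_le_exp]; linarith

open Classical in
theorem config_bound {n : ℕ} {s : ℝ} (hs : 1024 ≤ s) (hsn : s ^ 4 = n)
    {Ω : Type} [Fintype Ω] {p : Ω → ℝ} {vec : Ω → En n} (h0 : ∀ a, 0 < p a) (h1 : ∀ a, p a ≤ 1)
    {t : ℝ} (ht : t = 64 * s ^ 2)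
    (hU : ∀ (w : En n) (s u : ℝ), 0 ≤ u → (t + u + 1 / (2 * t)) * ‖w‖ ≤ s →
        lam p (univ.filter fun a => s < ⟪w, vec a⟫) ≤ exp (-(t * u)) / 2)
    (hLo : ∀ (w : En n) (s u : ℝ), w ≠ 0 → 0 ≤ u → u ≤ 3 * t → s ≤ (t + u - 1 / (2 * t)) * ‖w‖ →
        exp (-(4 * t * u)) / 8 ≤ lam p (univ.filter fun a => s < ⟪w, vec a⟫))
    (X : Finset (En n)) {N k0 : ℝ} (hN : (X.card : ℝ) ≤ N) (hN0 : 0 < N)
    (hG : volume (closedBall (0 : En n) 1 \ Good X (1 / t ^ 2) (1 / s ^ 3) k0)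
      ≤ ENNReal.ofReal (1 / 2) * vB n)
    {L : ℕ} (hL0 : 0 < L) (hL : L * (N ^ 2 * (1 / s) ^ n) ≤ 1 / 8)
    (hb : k0 ^ 2 * (32 * exp (56 + 65536 * s - 256 * s ^ 2)) ≤ 1) :
    Ex p (fun ω => if Cov vec X (1 / t ^ 2) (t + 3 / t) ω then 1 else 0)
      ≤ exp (-(1 / (3 * (exp (32800 * k0) / L + 16 * (N ^ 2 * (1 / 16) ^ n)
        + 2 * (k0 ^ 2 * (32 * exp (56 + 65536 * s - n))))))) := by
  have hs0 : 0 < s := by linarith
  have hs2 : 1024 ^ 2 ≤ s ^ 2 := by gcongr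
  have ht1 : 64 ≤ t := by nlinarith
  have ht0 : 0 < t := by linarith
  have ht2 : t ^ 2 = 4096 * n := by rw [ht, ← hsn]; ring
  have hn1 : 1 ≤ n := by
    have : (1 : ℝ) ≤ n := by rw [← hsn]; exact one_le_pow₀ (by linarith)
    exact_mod_cast this
  set η : ℝ := 1 / t ^ 2 with hη
  have hη0 : 0 ≤ η := by positivity
  have hdep : 1 / s ^ 3 ≤ 1 / 2 := one_div_le_one_div_of_le (by norm_num) (by nlinarith)
  obtain ⟨y, hy1, hy2, hy3⟩ := exists_tests X hN hN0 (d0 := 1 / s) (d1 := 1 / 16) (by positivity)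
    (by norm_num) _ hG hL0 hL L le_rfl
  set I : Fin L → Finset (En n) := fun i => X.filter (fun x => ‖y i - x‖ ≤ 1 + η) with hI
  set R : Fin L → En n → Finset Ω := fun i x =>
    univ.filter (fun a => t + 3 / t < ⟪y i - x, vec a⟫) with hR
  have hlow : ∀ i, ∀ x ∈ X,
      exp (-(28 + 32768 * (n * max (1 - ‖y i - x‖) 0))) / 8 ≤ lam p (R i x) := by
    intro i x hx
    have a1 : 1 - 1 / s ^ 3 ≤ ‖y i - x‖ := (hy1 i).2.2 x hx
    exact lam_low ht1 ht2 hLo (by linarith)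
  have hl : ∀ i, ∀ x ∈ I i, 0 < lam p (R i x) := fun i x hx =>
    lt_of_lt_of_le (by positivity) (hlow i x (mem_filter.1 hx).1)
  have hinv : ∀ i, ∀ x ∈ I i,
      (lam p (R i x))⁻¹ ≤ 8 * exp (28 + 32768 * (n * max (1 - ‖y i - x‖) 0)) := by
    intro i x hx
    refine (inv_anti₀ (by positivity) (hlow i x (mem_filter.1 hx).1)).trans (le_of_eq ?_)
    rw [exp_neg]; field_simp
  have hinv2 : ∀ i, ∀ x ∈ I i, (lam p (R i x))⁻¹ ≤ 8 * exp (28 + 32768 * s) := by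
    intro i x hx
    refine (hinv i x hx).trans ?_
    have a1 : 1 - 1 / s ^ 3 ≤ ‖y i - x‖ := (hy1 i).2.2 x (mem_filter.1 hx).1
    have a2 : max (1 - ‖y i - x‖) 0 ≤ 1 / s ^ 3 := max_le (by linarith) (by positivity)
    have a3 : (n : ℝ) * max (1 - ‖y i - x‖) 0 ≤ s := by
      calc _ ≤ n * (1 / s ^ 3) := by gcongr
        _ = s := by rw [← hsn]; field_simp
    gcongr
  have hkap : ∀ i, ∑ x ∈ I i, (kap (1 + η) (y i - x) : ℝ) ≤ k0 := fun i =>
    le_trans (sum_le_sum_of_subset_of_nonneg (filter_subset _ _) fun _ _ _ => by positivity)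
      (hy1 i).2.1
  have hcard : ∀ i, ((I i).card : ℝ) ≤ k0 := by
    intro i
    refine le_trans ?_ (hkap i)
    rw [card_eq_sum_ones, Nat.cast_sum]
    exact sum_le_sum fun x hx => by exact_mod_cast one_le_kap (mem_filter.1 hx).2
  have hpair : ∀ i i', ∀ d : ℝ, 0 ≤ d → d ≤ 1 → ¬ close X d (y i) (y i') →
      ∑ j' ∈ I i', ∑ j ∈ I i, lam p (R i j ∩ R i' j') * (lam p (R i j))⁻¹ * (lam p (R i' j'))⁻¹
        ≤ k0 ^ 2 * (32 * exp (56 + 65536 * s - 256 * n * d ^ 2)) := by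
    intro i i' d hd0 hd1 hc
    have a1 : ∀ j' ∈ I i', ∀ j ∈ I i,
        lam p (R i j ∩ R i' j') * (lam p (R i j))⁻¹ * (lam p (R i' j'))⁻¹
          ≤ 32 * exp (56 + 65536 * s - 256 * n * d ^ 2) := by
      intro j' hj' j hj
      have b1 : d ≤ ‖(y i - j) - (y i' - j')‖ := by
        by_contra hlt
        exact hc ⟨j, (mem_filter.1 hj).1, j', (mem_filter.1 hj').1, not_le.1 hlt⟩
      have b4 : lam p (R i j ∩ R i' j') ≤ exp (-(256 * n * d ^ 2)) / 2 :=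
        lam_pair h0 ht1 ht2 hU hd0 hd1 (mem_filter.1 hj).2 (mem_filter.1 hj').2 b1
      have b5 := inv_nonneg.2 (lam_nonneg h0 (R i j))
      have b6 := inv_nonneg.2 (lam_nonneg h0 (R i' j'))
      calc _ ≤ exp (-(256 * n * d ^ 2)) / 2 * (8 * exp (28 + 32768 * s))
            * (8 * exp (28 + 32768 * s)) := by
            gcongr
            · exact hinv2 i j hj
            · exact hinv2 i' j' hj'
        _ = 32 * (exp (-(256 * n * d ^ 2)) * exp (28 + 32768 * s) * exp (28 + 32768 * s)) := by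
            ring
        _ = _ := by rw [← exp_add, ← exp_add]; congr 2; ring
    have hk0 : 0 ≤ k0 := le_trans (by positivity) (hcard i)
    calc _ ≤ ∑ j' ∈ I i', ∑ j ∈ I i, 32 * exp (56 + 65536 * s - 256 * n * d ^ 2) :=
          sum_le_sum fun j' hj' => sum_le_sum fun j hj => a1 j' hj' j hj
      _ = (I i').card * (I i).card * (32 * exp (56 + 65536 * s - 256 * n * d ^ 2)) := by
          simp only [sum_const, nsmul_eq_mul]; ring
      _ ≤ k0 * k0 * (32 * exp (56 + 65536 * s - 256 * n * d ^ 2)) := by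
          gcongr
          · exact hcard i'
          · exact hcard i
      _ = _ := by ring
  set b1 := k0 ^ 2 * (32 * exp (56 + 65536 * s - n)) with hb1
  have hb10 : 0 ≤ b1 := by positivity
  have hb11 : b1 ≤ 1 := by
    refine le_trans ?_ hb
    have : 256 * s ^ 2 ≤ n := by rw [← hsn]; nlinarith
    rw [hb1]; gcongr
  have hL' : (0 : ℝ) < L := by exact_mod_cast hL0
  have hmain := cover_bound h0 h1 hL0 I R hl
    (fun i i' => (if i = i' then exp (32800 * k0) else 0)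
      + 2 * (if i ≠ i' ∧ close X (1 / 16) (y i) (y i') then (1 : ℝ) else 0) + 2 * b1)
    (fun i => by
      simp only [if_true, ne_eq, not_true_eq_false, false_and, if_false, mul_zero, add_zero]
      refine le_trans ?_ (le_add_of_nonneg_right (by positivity))
      rw [← prod_const, ← prod_mul_distrib]
      calc _ ≤ ∏ x ∈ I i, exp (32800 * (kap (1 + η) (y i - x) : ℝ)) := by
            refine prod_le_prod (fun x _ => ?_) fun x hx => ?_
            · have := inv_nonneg.2 (lam_nonneg h0 (R i x)); positivity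
            · exact diag_factor (hinv i x hx)
                (depth_le_kap hn1 (r0 := 1 + η) (by linarith) (y i - x))
                (by exact_mod_cast one_le_kap (mem_filter.1 hx).2)
        _ ≤ _ := by
            rw [← exp_sum, ← mul_sum, exp_le_exp]
            linarith [hkap i])
    (fun i i' hne => by
      have c0 : 0 ≤ ∑ j' ∈ I i', ∑ j ∈ I i,
          lam p (R i j ∩ R i' j') * (lam p (R i j))⁻¹ * (lam p (R i' j'))⁻¹ :=
        sum_nonneg fun _ _ => sum_nonneg fun _ _ => mul_nonneg (mul_nonneg (lam_nonneg h0 _)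
          (inv_nonneg.2 (lam_nonneg h0 _))) (inv_nonneg.2 (lam_nonneg h0 _))
      simp only [hne, if_false, ne_eq, not_false_eq_true, true_and, zero_add]
      split_ifs with hc
      · have c1 := hpair i i' (1 / s) (by positivity)
          (by rw [div_le_one hs0]; linarith) (hy2 i i' hne)
        have e : 256 * (n : ℝ) * (1 / s) ^ 2 = 256 * s ^ 2 := by rw [← hsn]; field_simp
        rw [e] at c1
        linarith [exp_sub_one_le c0 (c1.trans hb) le_rfl]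
      · have c1 := hpair i i' (1 / 16) (by norm_num) (by norm_num) hc
        have e : 256 * (n : ℝ) * (1 / 16) ^ 2 = n := by ring
        rw [e] at c1
        linarith [exp_sub_one_le c0 c1 hb11])
    (Δ := exp (32800 * k0) / L + 16 * (N ^ 2 * (1 / 16) ^ n) + 2 * b1) (by positivity)
    (by
      simp only [sum_add_distrib, sum_ite_eq, mem_univ, if_true, sum_const, card_univ,
        Fintype.card_fin, nsmul_eq_mul, ← mul_sum]
      have e : (L : ℝ) ^ 2 * (exp (32800 * k0) / L + 16 * (N ^ 2 * (1 / 16) ^ n) + 2 * b1)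
          = L * exp (32800 * k0) + 2 * (8 * L * L * (N ^ 2 * (1 / 16) ^ n))
            + L * (L * (2 * b1)) := by field_simp; ring
      rw [e]
      linarith)
  refine le_trans (Ex_mono h0 h1 fun ω => ?_) hmain
  split_ifs with c1 c2 c2
  · exact le_rfl
  · exfalso
    refine c2 fun i => ?_
    obtain ⟨x, hx, h2, h3⟩ := c1 (y i) (hy1 i).1
    refine ⟨x, mem_filter.2 ⟨hx, h2⟩, disjoint_left.2 fun a ha hb => ?_⟩
    exact absurd (mem_filter.1 hb).2 (not_lt.2 (h3 a ha))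
  · exact zero_le_one
  · exact le_rfl

end Vale.Agent.P230
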