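import Vale.Agent.P230.Janson

/-! Greedy witnesses for hitting a family of sets. -/

namespace Vale.Agent.P230

open Finset Real

set_option linter.unusedSectionVars false

variable {Ω : Type} [Fintype Ω] [DecidableEq Ω] {ι : Type}

/-- Total weight of a set. -/
noncomputable def lam (p : Ω → ℝ) (A : Finset Ω) : ℝ := ∑ a ∈ A, p a

theorem lam_nonneg {p : Ω → ℝ} (h0 : ∀ a, 0 < p a) (A : Finset Ω) : 0 ≤ lam p A :=
  sum_nonneg fun a _ => (h0 a).le

theorem prod_add_ge {α : Type} [DecidableEq α] (x y : α → ℝ) (hx : ∀ a, 0 ≤ x a)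
    (hy : ∀ a, 0 ≤ y a) (s : Finset α) :
    ∏ a ∈ s, x a + ∑ b ∈ s, y b * ∏ a ∈ s.erase b, x a ≤ ∏ a ∈ s, (x a + y a) := by
  induction s using Finset.induction_on with
  | empty => simp
  | insert c s hc ih =>
    rw [prod_insert hc, prod_insert hc, sum_insert hc, erase_insert hc]
    have e : ∑ b ∈ s, y b * ∏ a ∈ (insert c s).erase b, x a
        = x c * ∑ b ∈ s, y b * ∏ a ∈ s.erase b, x a := by
      rw [mul_sum]
      refine sum_congr rfl fun b hb => ?_
      have hbc : c ≠ b := fun h => hc (h ▸ hb)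
      rw [erase_insert_of_ne hbc, prod_insert (fun h => hc (mem_of_mem_erase h))]
      ring
    rw [e]
    have h1 : 0 ≤ ∑ b ∈ s, y b * ∏ a ∈ s.erase b, x a :=
      sum_nonneg fun b _ => mul_nonneg (hy b) (prod_nonneg fun a _ => hx a)
    have h2 := mul_le_mul_of_nonneg_left ih (add_nonneg (hx c) (hy c))
    nlinarith [mul_nonneg (hy c) h1]

section ordered

variable [LinearOrder ι]

def mm (R : ι → Finset Ω) (S' : Finset Ω) (J : Finset ι) (j : ι) : Finset Ω :=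
  S'.filter (fun b => b ∈ R j ∧ ∀ j2 ∈ J, j < j2 → b ∉ R j2)

noncomputable def Bf (p : Ω → ℝ) (R : ι → Finset Ω) (S' : Finset Ω) (I : Finset ι) : ℝ :=
  ∑ J ∈ powerset I, ∏ j ∈ J, ((mm R S' J j).card * (lam p (R j))⁻¹)

theorem Bf_mono {p : Ω → ℝ} (h0 : ∀ a, 0 < p a) (R : ι → Finset Ω) (S' : Finset Ω)
    {I I' : Finset ι} (h : I ⊆ I') : Bf p R S' I ≤ Bf p R S' I' :=
  sum_le_sum_of_subset_of_nonneg (powerset_mono.2 h) fun _ _ _ =>
    prod_nonneg fun _ _ => mul_nonneg (Nat.cast_nonneg _) (inv_nonneg.2 (lam_nonneg h0 _))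

theorem Bf_rec (p : Ω → ℝ) (R : ι → Finset Ω) (S' : Finset Ω) (I : Finset ι) (j0 : ι)
    (hj : ∀ j ∈ I, j0 < j) :
    Bf p R S' (insert j0 I) = Bf p R S' I
      + ∑ b ∈ R j0 ∩ S', (lam p (R j0))⁻¹ * Bf p R S' (I.filter (fun j => b ∉ R j)) := by
  have hn : j0 ∉ I := fun h => lt_irrefl _ (hj j0 h)
  unfold Bf
  rw [sum_powerset_insert hn]
  congr 1
  have e : ∀ b, ∑ J ∈ powerset (I.filter (fun j => b ∉ R j)),
      ∏ j ∈ J, ((mm R S' J j).card * (lam p (R j))⁻¹)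
      = ∑ J ∈ powerset I, (if ∀ j ∈ J, b ∉ R j then 1 else 0) *
        ∏ j ∈ J, ((mm R S' J j).card * (lam p (R j))⁻¹) := by
    intro b
    simp_rw [ite_mul, one_mul, zero_mul]
    rw [← sum_filter]
    congr 1
    ext J
    simp only [mem_powerset, mem_filter, subset_iff]
    constructor
    · intro h; exact ⟨fun x hx => (h hx).1, fun x hx => (h hx).2⟩
    · intro h x hx; exact ⟨h.1 hx, h.2 x hx⟩
  simp_rw [e, mul_sum]
  rw [sum_comm]
  refine sum_congr rfl fun J hJ => ?_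
  have hJI := mem_powerset.1 hJ
  have hnJ : j0 ∉ J := fun h => hn (hJI h)
  rw [prod_insert hnJ]
  have e1 : ∏ j ∈ J, ((mm R S' (insert j0 J) j).card * (lam p (R j))⁻¹)
      = ∏ j ∈ J, ((mm R S' J j).card * (lam p (R j))⁻¹) := by
    refine prod_congr rfl fun j hjJ => ?_
    congr 3
    unfold mm
    refine filter_congr fun b _ => ?_
    have : ¬ j < j0 := not_lt.2 (hj j (hJI hjJ)).le
    simp [this]
  have e2 : ((mm R S' (insert j0 J) j0).card : ℝ)
      = ∑ b ∈ R j0 ∩ S', (if ∀ j ∈ J, b ∉ R j then 1 else 0) := by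
    rw [← sum_filter, sum_const, nsmul_eq_mul, mul_one]
    congr 2
    ext b
    simp only [mm, mem_filter, mem_inter, mem_insert, forall_eq_or_imp, lt_irrefl,
      IsEmpty.forall_iff, true_and]
    constructor
    · rintro ⟨h1, h2, h3⟩; exact ⟨⟨h2, h1⟩, fun j hjJ => h3 j hjJ (hj j (hJI hjJ))⟩
    · rintro ⟨⟨h2, h1⟩, h3⟩; exact ⟨h1, h2, fun j hjJ _ => h3 j hjJ⟩
  rw [e1, e2, sum_mul, sum_mul]
  exact sum_congr rfl fun _ _ => by ring

theorem Bf_le {p : Ω → ℝ} (h0 : ∀ a, 0 < p a) (R : ι → Finset Ω) (S' : Finset Ω) (I : Finset ι) :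
    Bf p R S' I ≤ 2 ^ S'.card * ∏ j ∈ I, (1 + (lam p (R j))⁻¹) := by
  rw [prod_one_add, mul_sum]
  refine sum_le_sum fun J _ => ?_
  rw [prod_mul_distrib]
  refine mul_le_mul_of_nonneg_right ?_ (prod_nonneg fun j _ => inv_nonneg.2 (lam_nonneg h0 _))
  have h1 : ∏ j ∈ J, (mm R S' J j).card ≤ 2 ^ ∑ j ∈ J, (mm R S' J j).card := by
    rw [← prod_pow_eq_pow_sum]
    exact prod_le_prod' fun j _ => Nat.lt_two_pow_self.le
  have h2 : ∑ j ∈ J, (mm R S' J j).card ≤ S'.card := by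
    rw [← card_biUnion]
    · refine card_le_card fun b hb => ?_
      obtain ⟨j, _, hj⟩ := mem_biUnion.1 hb
      exact (mem_filter.1 hj).1
    · intro j hj j' hj' hne
      rw [Function.onFun, disjoint_left]
      intro b hb hb'
      have a1 := (mem_filter.1 hb).2
      have a2 := (mem_filter.1 hb').2
      rcases lt_or_gt_of_ne hne with h | h
      · exact a1.2 j' hj' h a2.1
      · exact a2.2 j hj h a1.1
  have h3 := h1.trans (Nat.pow_le_pow_right (by norm_num) h2)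
  exact_mod_cast h3

theorem exists_witness_aux {p : Ω → ℝ} (h0 : ∀ a, 0 < p a) (h1 : ∀ a, p a ≤ 1)
    (R : ι → Finset Ω) (I : Finset ι) : (∀ j ∈ I, 0 < lam p (R j)) →
    ∃ ν : Finset Ω → ℝ, (∀ S, 0 ≤ ν S) ∧ ∑ S, ν S = 1 ∧
      (∀ S, ν S ≠ 0 → (∀ j ∈ I, ¬ Disjoint S (R j)) ∧ S.card ≤ I.card) ∧
      (∀ h : Ω → ℝ, (∀ a, 0 ≤ h a) → ∑ S, ν S * ∏ a ∈ S, (1 + h a)
        ≤ ∏ j ∈ I, (1 + (∑ a ∈ R j, p a * h a) * (lam p (R j))⁻¹)) ∧
      (∀ S' : Finset Ω, ∑ S, ν S * ∏ a ∈ S ∩ S', (1 + (p a)⁻¹)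
        ≤ ∏ a ∈ S', (1 + ∑ j ∈ I, if a ∈ R j then (lam p (R j))⁻¹ else 0)) ∧
      (∀ S' : Finset Ω, ∑ S, ν S * ∏ a ∈ S ∩ S', (p a)⁻¹ ≤ Bf p R S' I) := by
  induction I using Finset.strongInduction with
  | H I ih =>
  intro hlam
  rcases I.eq_empty_or_nonempty with rfl | hne
  · refine ⟨fun S => if S = ∅ then 1 else 0, fun S => by beta_reduce; split_ifs <;> simp, by simp,
      fun S hS => ?_, fun h _ => by simp, fun S' => by simp, fun S' => by simp [Bf]⟩
    have : S = ∅ := by by_contra h; simp [h] at hS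
    simp [this]
  set j0 := I.min' hne with hj0
  set I' := I.erase j0 with hI'
  have hj0I : j0 ∈ I := min'_mem _ _
  have hIi : I = insert j0 I' := (insert_erase hj0I).symm
  have hnI' : j0 ∉ I' := notMem_erase _ _
  have hlt : ∀ j ∈ I', j0 < j := fun j hj =>
    lt_of_le_of_ne (min'_le _ _ (mem_of_mem_erase hj)) (ne_of_mem_erase hj).symm
  set Ib : Ω → Finset ι := fun b => I'.filter (fun j => b ∉ R j) with hIb
  have hsub : ∀ b, Ib b ⊆ I' := fun b => filter_subset _ _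
  have hss : ∀ b, Ib b ⊂ I := fun b => Finset.ssubset_of_subset_of_ssubset (hsub b) (erase_ssubset hj0I)
  choose ν hν0 hν1 hν2 hν3 hν4 hν5 using
    fun b => ih (Ib b) (hss b) (fun j hj => hlam j ((hss b).subset hj))
  set l0 := lam p (R j0) with hl0
  have hl : 0 < l0 := hlam j0 hj0I
  have hinv : ∀ j, 0 ≤ (lam p (R j))⁻¹ := fun j => inv_nonneg.2 (lam_nonneg h0 _)
  have hw : ∀ b, 0 ≤ p b * l0⁻¹ := fun b => mul_nonneg (h0 b).le (inv_pos.2 hl).le
  have hw1 : ∑ b ∈ R j0, p b * l0⁻¹ = 1 := by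
    rw [← sum_mul]; exact mul_inv_cancel₀ hl.ne'
  have hp1 : ∀ a, 1 ≤ (p a)⁻¹ := fun a => (one_le_inv₀ (h0 a)).2 (h1 a)
  set μ : Finset Ω → ℝ := fun S => ∑ b ∈ R j0, (p b * l0⁻¹) *
    ∑ S0 : Finset Ω, if insert b S0 = S then ν b S0 else 0 with hμ
  have hE : ∀ f : Finset Ω → ℝ, ∑ S, μ S * f S
      = ∑ b ∈ R j0, (p b * l0⁻¹) * ∑ S0, ν b S0 * f (insert b S0) := by
    intro f
    simp only [hμ, sum_mul]
    rw [sum_comm]
    refine sum_congr rfl fun b _ => ?_
    simp_rw [mul_assoc (p b * l0⁻¹), ← mul_sum, sum_mul]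
    rw [sum_comm]
    congr 1
    refine sum_congr rfl fun S0 _ => ?_
    simp
  refine ⟨μ, fun S => ?_, ?_, fun S hS => ?_, fun h hh => ?_, fun S' => ?_, fun S' => ?_⟩
  · refine sum_nonneg fun b _ => mul_nonneg (hw b) (sum_nonneg fun S0 _ => ?_)
    split_ifs
    · exact hν0 b S0
    · exact le_rfl
  · have := hE (fun _ => 1)
    simp only [mul_one, hν1] at this
    rw [this, hw1]
  · obtain ⟨b, hb, h2⟩ := exists_ne_zero_of_sum_ne_zero hS
    obtain ⟨S0, _, h3⟩ := exists_ne_zero_of_sum_ne_zero (right_ne_zero_of_mul h2)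
    have h4 : insert b S0 = S := by by_contra h; simp [h] at h3
    rw [if_pos h4] at h3
    obtain ⟨h5, h6⟩ := hν2 b S0 h3
    subst h4
    refine ⟨fun j hj => ?_, ?_⟩
    · by_cases hbj : b ∈ R j
      · exact not_disjoint_iff.2 ⟨b, mem_insert_self _ _, hbj⟩
      · have hjj : j ≠ j0 := fun h => hbj (h ▸ hb)
        exact fun hd => h5 j (mem_filter.2 ⟨mem_erase.2 ⟨hjj, hj⟩, hbj⟩)
          (hd.mono_left (subset_insert _ _))
    · have := card_lt_card (hss b)
      have := card_insert_le b S0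
      omega
  · rw [hE, hIi, prod_insert hnI']
    have hf : ∀ j, 1 ≤ 1 + (∑ a ∈ R j, p a * h a) * (lam p (R j))⁻¹ := fun j => by
      have := mul_nonneg (sum_nonneg fun a (_ : a ∈ R j) => mul_nonneg (h0 a).le (hh a)) (hinv j)
      linarith
    set Q := ∏ j ∈ I', (1 + (∑ a ∈ R j, p a * h a) * (lam p (R j))⁻¹) with hQ
    have a1 : ∀ b, ∑ S0, ν b S0 * ∏ a ∈ insert b S0, (1 + h a) ≤ (1 + h b) * Q := by
      intro b
      have b1 : ∑ S0, ν b S0 * ∏ a ∈ insert b S0, (1 + h a)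
          ≤ (1 + h b) * ∑ S0, ν b S0 * ∏ a ∈ S0, (1 + h a) := by
        rw [mul_sum]
        refine sum_le_sum fun S0 _ => ?_
        rw [mul_left_comm]
        refine mul_le_mul_of_nonneg_left ?_ (hν0 b S0)
        by_cases hb : b ∈ S0
        · rw [insert_eq_of_mem hb]
          have : 0 ≤ ∏ a ∈ S0, (1 + h a) := prod_nonneg fun a _ => by linarith [hh a]
          nlinarith [hh b]
        · rw [prod_insert hb]
      refine b1.trans (mul_le_mul_of_nonneg_left ((hν3 b h hh).trans ?_) (by linarith [hh b]))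
      exact prod_le_prod_of_subset_of_one_le (hsub b) (fun j _ => by linarith [hf j])
        (fun j _ _ => hf j)
    calc _ ≤ ∑ b ∈ R j0, (p b * l0⁻¹) * ((1 + h b) * Q) :=
          sum_le_sum fun b _ => mul_le_mul_of_nonneg_left (a1 b) (hw b)
      _ = (∑ b ∈ R j0, p b * l0⁻¹ + (∑ a ∈ R j0, p a * h a) * l0⁻¹) * Q := by
          rw [sum_mul, ← sum_add_distrib, sum_mul]
          exact sum_congr rfl fun _ _ => by ring
      _ = _ := by rw [hw1]
  · rw [hE]
    set x : Ω → ℝ := fun a => 1 + ∑ j ∈ I', if a ∈ R j then (lam p (R j))⁻¹ else 0 with hx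
    have hite : ∀ a j, 0 ≤ if a ∈ R j then (lam p (R j))⁻¹ else 0 := fun a j => by
      split_ifs
      · exact hinv j
      · exact le_rfl
    have hx1 : ∀ a, 1 ≤ x a := fun a => by
      have := sum_nonneg fun j (_ : j ∈ I') => hite a j
      simp only [hx]; linarith
    have a0 : ∀ b (S'' : Finset Ω), ∑ S0, ν b S0 * ∏ a ∈ S0 ∩ S'', (1 + (p a)⁻¹)
        ≤ ∏ a ∈ S'', x a := by
      intro b S''
      refine (hν4 b S'').trans (prod_le_prod (fun a _ => ?_) fun a _ => ?_)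
      · have := sum_nonneg fun j (_ : j ∈ Ib b) => hite a j
        linarith
      · have := sum_le_sum_of_subset_of_nonneg (hsub b) (fun j _ _ => hite a j)
        simp only [hx]; linarith
    have a1 : ∀ b, ∑ S0, ν b S0 * ∏ a ∈ insert b S0 ∩ S', (1 + (p a)⁻¹)
        ≤ ∏ a ∈ S', x a + if b ∈ S' then (p b)⁻¹ * ∏ a ∈ S'.erase b, x a else 0 := by
      intro b
      split_ifs with hb
      · have e : ∀ S0 : Finset Ω, ∏ a ∈ insert b S0 ∩ S', (1 + (p a)⁻¹)
            = (1 + (p b)⁻¹) * ∏ a ∈ S0 ∩ S'.erase b, (1 + (p a)⁻¹) := by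
          intro S0
          rw [← prod_insert (f := fun a => 1 + (p a)⁻¹) (a := b) (by simp)]
          congr 1
          ext a
          by_cases hab : a = b <;> simp [hab, hb]
        simp_rw [e, mul_left_comm _ (1 + (p b)⁻¹), ← mul_sum]
        have c1 := a0 b (S'.erase b)
        have c2 : ∏ a ∈ S'.erase b, x a ≤ ∏ a ∈ S', x a :=
          prod_le_prod_of_subset_of_one_le (erase_subset _ _) (fun a _ => by linarith [hx1 a])
            (fun a _ _ => hx1 a)
        nlinarith [hp1 b]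
      · simp_rw [insert_inter_of_notMem hb, add_zero]
        exact a0 b S'
    have a2 := prod_add_ge x (fun a => if a ∈ R j0 then l0⁻¹ else 0)
      (fun a => by linarith [hx1 a]) (fun a => hite a j0) S'
    calc _ ≤ ∑ b ∈ R j0, (p b * l0⁻¹) * (∏ a ∈ S', x a +
            if b ∈ S' then (p b)⁻¹ * ∏ a ∈ S'.erase b, x a else 0) :=
          sum_le_sum fun b _ => mul_le_mul_of_nonneg_left (a1 b) (hw b)
      _ = ∏ a ∈ S', x a
            + ∑ b ∈ S', (if b ∈ R j0 then l0⁻¹ else 0) * ∏ a ∈ S'.erase b, x a := by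
          simp_rw [mul_add]
          rw [sum_add_distrib, ← sum_mul, hw1, one_mul]
          congr 1
          simp_rw [mul_ite, mul_zero, ite_mul, zero_mul]
          rw [← sum_filter, ← sum_filter, filter_mem_eq_inter, filter_mem_eq_inter, inter_comm]
          refine sum_congr rfl fun b _ => ?_
          have := (h0 b).ne'
          field_simp
      _ ≤ _ := a2
      _ = _ := by
          refine prod_congr rfl fun a _ => ?_
          rw [hIi, sum_insert hnI']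
          simp only [hx]; ring
  · rw [hE, hIi, Bf_rec p R S' I' j0 hlt]
    have a1 : ∀ b, ∑ S0, ν b S0 * ∏ a ∈ insert b S0 ∩ S', (p a)⁻¹
        ≤ Bf p R S' I' + if b ∈ S' then (p b)⁻¹ * Bf p R S' (Ib b) else 0 := by
      intro b
      split_ifs with hb
      · have c0 : 0 ≤ Bf p R S' I' := by
          refine le_trans ?_ (Bf_mono h0 R S' (empty_subset _))
          simp [Bf]
        have c1 : ∑ S0, ν b S0 * ∏ a ∈ insert b S0 ∩ S', (p a)⁻¹
            ≤ (p b)⁻¹ * ∑ S0, ν b S0 * ∏ a ∈ S0 ∩ S', (p a)⁻¹ := by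
          rw [mul_sum]
          refine sum_le_sum fun S0 _ => ?_
          rw [mul_left_comm]
          refine mul_le_mul_of_nonneg_left ?_ (hν0 b S0)
          rw [insert_inter_of_mem hb]
          by_cases hb0 : b ∈ S0 ∩ S'
          · rw [insert_eq_of_mem hb0]
            have : 0 ≤ ∏ a ∈ S0 ∩ S', (p a)⁻¹ := prod_nonneg fun a _ => by linarith [hp1 a]
            nlinarith [hp1 b]
          · rw [prod_insert hb0]
        have c2 := mul_le_mul_of_nonneg_left (hν5 b S') (show 0 ≤ (p b)⁻¹ by linarith [hp1 b])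
        linarith
      · simp_rw [insert_inter_of_notMem hb, add_zero]
        exact (hν5 b S').trans (Bf_mono h0 R S' (hsub b))
    calc _ ≤ ∑ b ∈ R j0, (p b * l0⁻¹) * (Bf p R S' I' +
            if b ∈ S' then (p b)⁻¹ * Bf p R S' (Ib b) else 0) :=
          sum_le_sum fun b _ => mul_le_mul_of_nonneg_left (a1 b) (hw b)
      _ = _ := by
          simp_rw [mul_add]
          rw [sum_add_distrib, ← sum_mul, hw1, one_mul]
          congr 1
          simp_rw [mul_ite, mul_zero]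
          rw [← sum_filter, filter_mem_eq_inter]
          refine sum_congr rfl fun b _ => ?_
          have := (h0 b).ne'
          change _ = l0⁻¹ * Bf p R S' (Ib b)
          field_simp

end ordered

theorem exists_witness {p : Ω → ℝ} (h0 : ∀ a, 0 < p a) (h1 : ∀ a, p a ≤ 1)
    (R : ι → Finset Ω) (I : Finset ι) (hl : ∀ j ∈ I, 0 < lam p (R j)) :
    ∃ ν : Finset Ω → ℝ, (∀ S, 0 ≤ ν S) ∧ ∑ S, ν S = 1 ∧
      (∀ S, ν S ≠ 0 → (∀ j ∈ I, ¬ Disjoint S (R j)) ∧ S.card ≤ I.card) ∧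
      (∀ h : Ω → ℝ, (∀ a, 0 ≤ h a) → ∑ S, ν S * ∏ a ∈ S, (1 + h a)
        ≤ ∏ j ∈ I, (1 + (∑ a ∈ R j, p a * h a) * (lam p (R j))⁻¹)) ∧
      (∀ S' : Finset Ω, ∑ S, ν S * ∏ a ∈ S ∩ S', (1 + (p a)⁻¹)
        ≤ ∏ a ∈ S', (1 + ∑ j ∈ I, if a ∈ R j then (lam p (R j))⁻¹ else 0)) ∧
      (∀ S' : Finset Ω, ∑ S, ν S * ∏ a ∈ S ∩ S', (p a)⁻¹
        ≤ 2 ^ S'.card * ∏ j ∈ I, (1 + (lam p (R j))⁻¹)) := by
  classical
  let _ : LinearOrder ι := linearOrderOfSTO (WellOrderingRel : ι → ι → Prop)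
  obtain ⟨ν, a1, a2, a3, a4, a5, a6⟩ := exists_witness_aux h0 h1 R I hl
  exact ⟨ν, a1, a2, a3, a4, a5, fun S' => (a6 S').trans (Bf_le h0 R S' I)⟩

end Vale.Agent.P230
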