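import Vale.Agent.P230.Tail
import Vale.Agent.P230.Witness

/-! A finite family of weighted cut normals that imitates a Poisson process of Gaussian vectors. -/

namespace Vale.Agent.P230

open MeasureTheory ProbabilityTheory Real Finset
open scoped RealInnerProductSpace

abbrev En (n : ℕ) := EuclideanSpace ℝ (Fin n)

/-- Grid coordinates. -/
noncomputable def fl {n : ℕ} (δ : ℝ) (g : En n) : Fin n → ℤ := fun i => ⌊g i / δ⌋

/-- Grid point. -/
noncomputable def pt {n : ℕ} (δ : ℝ) (k : Fin n → ℤ) : En n := WithLp.toLp 2 (fun i => δ * k i)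

theorem norm_le_of_coord {n : ℕ} (x : En n) {c : ℝ} (hc : 0 ≤ c) (h : ∀ i, |x i| ≤ c) :
    ‖x‖ ≤ c * √n := by
  rw [EuclideanSpace.norm_eq, ← sqrt_sq hc, ← sqrt_mul (sq_nonneg _)]
  refine sqrt_le_sqrt ?_
  calc ∑ i, ‖x i‖ ^ 2 ≤ ∑ _i : Fin n, c ^ 2 := by
        refine sum_le_sum fun i _ => ?_
        rw [Real.norm_eq_abs]
        exact pow_le_pow_left₀ (abs_nonneg _) (h i) 2
    _ = _ := by simp [mul_comm]

theorem norm_pt_fl {n : ℕ} {δ : ℝ} (hδ : 0 < δ) (g : En n) : ‖pt δ (fl δ g) - g‖ ≤ δ * √n := by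
  refine norm_le_of_coord _ hδ.le fun i => ?_
  have h1 := Int.floor_le (g i / δ)
  have h2 := Int.lt_floor_add_one (g i / δ)
  rw [le_div_iff₀ hδ] at h1
  rw [div_lt_iff₀ hδ] at h2
  have : (pt δ (fl δ g) - g) i = δ * ⌊g i / δ⌋ - g i := by simp [pt, fl]
  rw [this, abs_le]
  constructor <;> nlinarith

theorem measurable_fl {n : ℕ} (δ : ℝ) : Measurable (fl (n := n) δ) := by
  refine measurable_pi_lambda _ fun i => Measurable.floor ?_
  fun_prop

/-- The integer box. -/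
noncomputable def box (n : ℕ) (L : ℤ) : Finset (Fin n → ℤ) :=
  Fintype.piFinset (fun _ => Finset.Icc (-L) L)

theorem fl_mem_box {n : ℕ} {δ c : ℝ} (hδ : 0 < δ) {L : ℤ} (hL : c / δ ≤ L) (g : En n)
    (h : ∀ i, |g i| ≤ c) : fl δ g ∈ box n L := by
  refine Fintype.mem_piFinset.2 fun i => Finset.mem_Icc.2 ⟨?_, ?_⟩
  · rw [fl, Int.le_floor]
    have := (abs_le.1 (h i)).1
    have h2 : -c / δ ≤ g i / δ := by gcongr
    rw [neg_div] at h2
    push_cast
    linarith
  · have := (abs_le.1 (h i)).2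
    have h2 : g i / δ ≤ c / δ := by gcongr
    have h3 : ((⌊g i / δ⌋ : ℤ) : ℝ) ≤ L := (Int.floor_le _).trans (h2.trans hL)
    exact_mod_cast h3

theorem sum_min_ge {α : Type} (s : Finset α) (f : α → ℝ) (hf : ∀ a, 0 ≤ f a) :
    min 1 (∑ a ∈ s, f a) ≤ ∑ a ∈ s, min 1 (f a) := by
  by_cases h : ∀ a ∈ s, f a ≤ 1
  · rw [sum_congr rfl fun a ha => min_eq_right (h a ha)]
    exact min_le_right _ _
  · push Not at h
    obtain ⟨a, ha, h1⟩ := h
    refine (min_le_left _ _).trans ?_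
    have := single_le_sum (f := fun a => min 1 (f a)) (fun a _ => le_min zero_le_one (hf a)) ha
    simpa [min_eq_left h1.le] using this

theorem outbox_le {n : ℕ} {t : ℝ} (ht : 0 ≤ t) (hn : 4 * (n : ℝ) ≤ exp (4 * t ^ 2)) :
    (stdGaussian (En n)).real {g | ¬ ∀ i, |g i| ≤ 5 * t} ≤ Qt (4 * t) / 2 := by
  have hsub : {g : En n | ¬ ∀ i, |g i| ≤ 5 * t} ⊆ ⋃ i ∈ (univ : Finset (Fin n)),
      ({g : En n | 5 * t < ⟪EuclideanSpace.single i (1 : ℝ), g⟫} ∪
        {g : En n | 5 * t < ⟪-EuclideanSpace.single i (1 : ℝ), g⟫}) := by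
    intro g hg
    simp only [not_forall, not_le, Set.mem_ofPred_eq] at hg
    obtain ⟨i, hi⟩ := hg
    simp only [mem_univ, Set.iUnion_true, Set.mem_iUnion, Set.mem_union, Set.mem_ofPred_eq,
      inner_neg_left, EuclideanSpace.inner_single_left]
    refine ⟨i, ?_⟩
    simpa [lt_abs] using hi
  refine (measureReal_mono hsub (measure_ne_top _ _)).trans
    ((measureReal_biUnion_finset_le _ _).trans ?_)
  have h1 : ∀ i : Fin n, (stdGaussian (En n)).real
      ({g : En n | 5 * t < ⟪EuclideanSpace.single i (1 : ℝ), g⟫} ∪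
        {g : En n | 5 * t < ⟪-EuclideanSpace.single i (1 : ℝ), g⟫}) ≤ 2 * Qt (5 * t) := by
    intro i
    refine (measureReal_union_le _ _).trans ?_
    have a1 := gauss_half_le (EuclideanSpace.single i (1 : ℝ) : En n) (s := 5 * t) (τ := 5 * t)
      (by positivity) (by simp)
    have a2 := gauss_half_le (-EuclideanSpace.single i (1 : ℝ) : En n) (s := 5 * t) (τ := 5 * t)
      (by positivity) (by simp)
    linarith
  refine (sum_le_card_nsmul _ _ _ fun i _ => h1 i).trans ?_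
  have h2 := Qt_upper (4 * t) ht
  have e : 4 * t + t = 5 * t := by ring
  rw [e, exp_neg, show 4 * t * t = 4 * t ^ 2 by ring] at h2
  rw [card_univ, Fintype.card_fin, nsmul_eq_mul]
  have h3 : exp (4 * t ^ 2) * Qt (5 * t) ≤ Qt (4 * t) := by
    rwa [inv_mul_eq_div, le_div_iff₀ (exp_pos _), mul_comm] at h2
  nlinarith [Qt_nonneg (5 * t)]

open Classical in
theorem exists_cuts (n : ℕ) (hn1 : 1 ≤ n) {t : ℝ} (ht : 1 ≤ t)
    (hn : 4 * (n : ℝ) ≤ exp (4 * t ^ 2)) :
    ∃ (Ω : Type) (_ : Fintype Ω) (p : Ω → ℝ) (vec : Ω → En n),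
      (∀ a, 0 < p a) ∧ (∀ a, p a ≤ 1) ∧ (∀ a, ‖vec a‖ ≤ 6 * t * √n) ∧
      (∀ (w : En n) (s u : ℝ), 0 ≤ u → (t + u + 1 / (2 * t)) * ‖w‖ ≤ s →
        lam p (univ.filter fun a => s < ⟪w, vec a⟫) ≤ exp (-(t * u)) / 2) ∧
      (∀ (w : En n) (s u : ℝ), w ≠ 0 → 0 ≤ u → u ≤ 3 * t → s ≤ (t + u - 1 / (2 * t)) * ‖w‖ →
        exp (-(4 * t * u)) / 8 ≤ lam p (univ.filter fun a => s < ⟪w, vec a⟫)) := by
  have hsq : 1 ≤ √(n : ℝ) := by
    rw [one_le_sqrt]; exact_mod_cast hn1
  have ht0 : 0 < t := by linarith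
  set δ : ℝ := 1 / (2 * t * √n) with hδ
  have hδ0 : 0 < δ := by positivity
  have hδ1 : δ * √n = 1 / (2 * t) := by rw [hδ]; field_simp
  have hδ2 : δ ≤ t := by
    have : δ ≤ 1 := by
      rw [hδ, div_le_one (by positivity)]; nlinarith
    linarith
  set γ := stdGaussian (En n) with hγ
  set L : ℤ := ⌈5 * t / δ⌉ with hL
  set mass : (Fin n → ℤ) → ℝ := fun k => γ.real (fl δ ⁻¹' {k}) with hmass
  have hm0 : ∀ k, 0 ≤ mass k := fun k => measureReal_nonneg
  set M : ℝ := 1 / (2 * Qt t) with hM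
  have hQ := Qt_pos t
  have hM0 : 0 < M := by positivity
  set B := (box n L).filter (fun k => 0 < mass k) with hB
  have hsum : ∀ A : Finset (Fin n → ℤ), ∑ k ∈ A, mass k = γ.real (fl δ ⁻¹' A) := fun A =>
    sum_measureReal_preimage_singleton A fun k _ => measurable_fl δ (measurableSet_singleton k)
  have herr : ∀ w g : En n, |⟪w, pt δ (fl δ g)⟫ - ⟪w, g⟫| ≤ 1 / (2 * t) * ‖w‖ := by
    intro w g
    rw [← inner_sub_right, mul_comm, ← hδ1]
    exact (abs_real_inner_le_norm _ _).trans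
      (mul_le_mul_of_nonneg_left (norm_pt_fl hδ0 g) (norm_nonneg _))
  have hlam : ∀ (f : (Fin n → ℤ) → ℝ) (P : (Fin n → ℤ) → Prop),
      ∑ a ∈ (univ : Finset B).filter (fun a => P a.1), f a.1 = ∑ k ∈ B.filter P, f k := by
    intro f P
    rw [sum_filter, sum_filter, sum_coe_sort B (fun k => if P k then f k else 0)]
  refine ⟨B, inferInstance, fun a => min 1 (M * mass a.1), fun a => pt δ a.1, fun a => ?_,
    fun a => min_le_left _ _, fun a => ?_, fun w s u hu hs => ?_, fun w s u hw hu hu3 hs => ?_⟩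
  · exact lt_min one_pos (mul_pos hM0 (mem_filter.1 a.2).2)
  · refine norm_le_of_coord _ (by positivity) fun i => ?_
    have h1 := Finset.mem_Icc.1 (Fintype.mem_piFinset.1 (mem_filter.1 a.2).1 i)
    have h2 : |(a.1 i : ℝ)| ≤ L := by
      rw [abs_le]; exact_mod_cast h1
    have h3 : (L : ℝ) ≤ 5 * t / δ + 1 := (Int.ceil_lt_add_one _).le
    have : (pt δ a.1) i = δ * a.1 i := by simp [pt]
    rw [this, abs_mul, abs_of_pos hδ0]
    calc δ * |(a.1 i : ℝ)| ≤ δ * (5 * t / δ + 1) := by gcongr; exact h2.trans h3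
      _ = 5 * t + δ := by field_simp
      _ ≤ _ := by linarith
  · unfold lam
    rw [hlam (fun k => min 1 (M * mass k)) (fun k => s < ⟪w, pt δ k⟫)]
    have hw0 := norm_nonneg w
    calc _ ≤ ∑ k ∈ B.filter (fun k => s < ⟪w, pt δ k⟫), M * mass k :=
          sum_le_sum fun k _ => min_le_right _ _
      _ = M * γ.real (fl δ ⁻¹' (B.filter (fun k => s < ⟪w, pt δ k⟫))) := by
          rw [← mul_sum, hsum]
      _ ≤ M * γ.real {g | (t + u) * ‖w‖ < ⟪w, g⟫} := by
          refine mul_le_mul_of_nonneg_left (measureReal_mono fun g hg => ?_) hM0.le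
          have h1 : s < ⟪w, pt δ (fl δ g)⟫ := (mem_filter.1 (mem_coe.1 hg)).2
          have h2 := (abs_le.1 (herr w g)).2
          change (t + u) * ‖w‖ < ⟪w, g⟫
          linarith
      _ ≤ M * Qt (t + u) :=
          mul_le_mul_of_nonneg_left (gauss_half_le w (by positivity) le_rfl) hM0.le
      _ ≤ M * (exp (-(t * u)) * Qt t) := mul_le_mul_of_nonneg_left (Qt_upper t hu) hM0.le
      _ = _ := by rw [hM]; field_simp
  · unfold lam
    rw [hlam (fun k => min 1 (M * mass k)) (fun k => s < ⟪w, pt δ k⟫)]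
    refine le_trans ?_ (sum_min_ge _ _ fun k => mul_nonneg hM0.le (hm0 k))
    have hw0 : 0 < ‖w‖ := norm_pos_iff.2 hw
    have e1 : ∑ k ∈ B.filter (fun k => s < ⟪w, pt δ k⟫), mass k
        = ∑ k ∈ (box n L).filter (fun k => s < ⟪w, pt δ k⟫), mass k := by
      rw [hB, filter_comm]
      refine sum_filter_of_ne fun k _ hk => lt_of_le_of_ne (hm0 k) hk.symm
    have h1 : Qt (t + u) ≤ γ.real (fl δ ⁻¹' ((box n L).filter (fun k => s < ⟪w, pt δ k⟫)))
        + Qt (4 * t) / 2 := by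
      have e2 : Qt (t + u) = γ.real {g | (t + u) * ‖w‖ < ⟪w, g⟫} := by
        rw [hγ, gauss_half hw, mul_div_assoc, div_self hw0.ne', mul_one]
      rw [e2]
      refine le_trans (measureReal_mono (s₂ := fl δ ⁻¹' ((box n L).filter
        (fun k => s < ⟪w, pt δ k⟫)) ∪ {g | ¬ ∀ i, |g i| ≤ 5 * t}) fun g hg => ?_)
        ((measureReal_union_le _ _).trans (add_le_add le_rfl (outbox_le ht0.le hn)))
      by_cases hb : ∀ i, |g i| ≤ 5 * t
      · left
        refine mem_coe.2 (mem_filter.2 ⟨fl_mem_box hδ0 (Int.le_ceil _) g hb, ?_⟩)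
        have h1 : (t + u) * ‖w‖ < ⟪w, g⟫ := hg
        have h2 := (abs_le.1 (herr w g)).1
        linarith
      · right; exact hb
    have h2 : Qt (4 * t) ≤ Qt (t + u) := Qt_anti (by linarith)
    have h3 := Qt_lower ht hu
    have h4 : exp (-(4 * t * u)) ≤ exp (-((t + 1) * u) - u ^ 2 / 2) := by
      rw [exp_le_exp]; nlinarith
    refine le_min ?_ ?_
    · have : exp (-(4 * t * u)) ≤ 1 := by
        rw [exp_le_one_iff]; have := mul_nonneg ht0.le hu; linarith
      linarith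
    · rw [← mul_sum, e1, hsum, hM, one_div, le_inv_mul_iff₀ (by positivity)]
      nlinarith

end Vale.Agent.P230
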