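import Mathlib

/-! A weighted Janson inequality for random subsets of a finite set. -/

namespace Vale.Agent.P230

open Finset Real

set_option linter.unusedSectionVars false

variable {Ω : Type} [Fintype Ω] [DecidableEq Ω]

/-- Probability of the subset `ω` when each `a` is kept independently with probability `p a`. -/
noncomputable def prob (p : Ω → ℝ) (ω : Finset Ω) : ℝ := ∏ a, if a ∈ ω then p a else 1 - p a

/-- Expectation. -/
noncomputable def Ex (p : Ω → ℝ) (f : Finset Ω → ℝ) : ℝ := ∑ ω : Finset Ω, prob p ω * f ω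

theorem prob_nonneg {p : Ω → ℝ} (h0 : ∀ a, 0 < p a) (h1 : ∀ a, p a ≤ 1) (ω : Finset Ω) :
    0 ≤ prob p ω := by
  refine prod_nonneg fun a _ => ?_
  split_ifs
  · exact (h0 a).le
  · linarith [h1 a]

theorem sum_prob (p : Ω → ℝ) : ∑ ω : Finset Ω, prob p ω = 1 := by
  have h := Finset.prod_add p (fun a => 1 - p a) (univ : Finset Ω)
  simp only [add_sub_cancel, prod_const_one, powerset_univ] at h
  rw [h]
  refine sum_congr rfl fun ω _ => ?_
  unfold prob
  rw [prod_ite]
  congr 1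
  · congr 1; ext a; simp
  · congr 1; ext a; simp

theorem Ex_mono {p : Ω → ℝ} (h0 : ∀ a, 0 < p a) (h1 : ∀ a, p a ≤ 1) {f g : Finset Ω → ℝ}
    (h : ∀ ω, f ω ≤ g ω) : Ex p f ≤ Ex p g :=
  sum_le_sum fun ω _ => mul_le_mul_of_nonneg_left (h ω) (prob_nonneg h0 h1 ω)

theorem Ex_const (p : Ω → ℝ) (c : ℝ) : Ex p (fun _ => c) = c := by
  unfold Ex; rw [← sum_mul, sum_prob, one_mul]

theorem Ex_sum (p : Ω → ℝ) {ι : Type} (s : Finset ι) (f : ι → Finset Ω → ℝ) :
    Ex p (fun ω => ∑ i ∈ s, f i ω) = ∑ i ∈ s, Ex p (f i) := by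
  unfold Ex; simp_rw [mul_sum]; rw [sum_comm]

theorem Ex_const_mul (p : Ω → ℝ) (c : ℝ) (f : Finset Ω → ℝ) :
    Ex p (fun ω => c * f ω) = c * Ex p f := by
  unfold Ex; rw [mul_sum]; exact sum_congr rfl fun _ _ => by ring

theorem Ex_add (p : Ω → ℝ) (f g : Finset Ω → ℝ) :
    Ex p (fun ω => f ω + g ω) = Ex p f + Ex p g := by
  unfold Ex; rw [← sum_add_distrib]; exact sum_congr rfl fun _ _ => by ring

theorem Ex_insert (p : Ω → ℝ) (a : Ω) (g : Finset Ω → ℝ) :
    Ex p (fun ω => if a ∈ ω then g ω else 0) = p a * Ex p (fun ω => g (insert a ω)) := by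
  unfold Ex
  have hu : (univ : Finset (Finset Ω)) = powerset (insert a (univ.erase a)) := by
    rw [insert_erase (mem_univ a), powerset_univ]
  rw [hu, sum_powerset_insert (notMem_erase a _), sum_powerset_insert (notMem_erase a _),
    ← sum_add_distrib, ← sum_add_distrib, mul_sum]
  refine sum_congr rfl fun t ht => ?_
  have hat : a ∉ t := fun h => notMem_erase a univ (mem_powerset.1 ht h)
  have e1 : prob p t = (1 - p a) * ∏ b ∈ univ.erase a, if b ∈ t then p b else 1 - p b := by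
    unfold prob
    rw [← mul_prod_erase _ _ (mem_univ a), if_neg hat]
  have e2 : prob p (insert a t) = p a * ∏ b ∈ univ.erase a, if b ∈ t then p b else 1 - p b := by
    unfold prob
    rw [← mul_prod_erase _ _ (mem_univ a), if_pos (mem_insert_self _ _)]
    congr 1
    refine prod_congr rfl fun b hb => ?_
    simp [ne_of_mem_erase hb]
  simp only [hat, if_false, mem_insert_self, if_true, insert_eq_of_mem (mem_insert_self a t), e1, e2]
  ring

theorem Ex_union (p : Ω → ℝ) (S : Finset Ω) : ∀ g : Finset Ω → ℝ,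
    Ex p (fun ω => if S ⊆ ω then g ω else 0) = (∏ a ∈ S, p a) * Ex p (fun ω => g (ω ∪ S)) := by
  induction S using Finset.induction_on with
  | empty => intro g; simp
  | insert a S ha ih =>
    intro g
    have e : (fun ω : Finset Ω => if insert a S ⊆ ω then g ω else 0)
        = fun ω => if a ∈ ω then (if S ⊆ ω then g ω else 0) else 0 := by
      funext ω
      by_cases h1 : a ∈ ω <;> by_cases h2 : S ⊆ ω <;> simp [insert_subset_iff, h1, h2]
    have e2 : (fun ω : Finset Ω => if S ⊆ insert a ω then g (insert a ω) else 0)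
        = fun ω => if S ⊆ ω then g (insert a ω) else 0 := by
      funext ω
      simp only [subset_insert_iff_of_notMem ha]
    rw [e, Ex_insert, e2, ih (fun ω => g (insert a ω)), prod_insert ha, mul_assoc]
    congr 3
    funext ω
    rw [union_insert]

theorem Ex_subset (p : Ω → ℝ) (S : Finset Ω) :
    Ex p (fun ω => if S ⊆ ω then 1 else 0) = ∏ a ∈ S, p a := by
  rw [Ex_union p S (fun _ => 1), Ex_const, mul_one]

theorem harris {p : Ω → ℝ} (h0 : ∀ a, 0 < p a) (h1 : ∀ a, p a ≤ 1) {f g : Finset Ω → ℝ}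
    (hf0 : ∀ ω, 0 ≤ f ω) (hg0 : ∀ ω, 0 ≤ g ω) (hf : Antitone f) (hg : Antitone g) :
    Ex p f * Ex p g ≤ Ex p (fun ω => f ω * g ω) := by
  have h := fkg (β := ℝ) (α := (Finset Ω)ᵒᵈ) (μ := fun ω => prob p (OrderDual.ofDual ω))
    (f := fun ω => f (OrderDual.ofDual ω)) (g := fun ω => g (OrderDual.ofDual ω))
    (fun ω => prob_nonneg h0 h1 _) (fun ω => hf0 _) (fun ω => hg0 _)
    (fun a b hab => hf hab) (fun a b hab => hg hab) (fun a b => by
      refine le_of_eq ?_
      unfold prob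
      rw [← prod_mul_distrib, ← prod_mul_distrib]
      refine prod_congr rfl fun x _ => ?_
      by_cases h1 : x ∈ OrderDual.ofDual a <;> by_cases h2 : x ∈ OrderDual.ofDual b <;>
        simp [h1, h2, mul_comm])
  have hs : ∑ ω : (Finset Ω)ᵒᵈ, prob p (OrderDual.ofDual ω) = 1 := sum_prob p
  rw [hs, one_mul] at h
  exact h

/-- Jensen for the exponential. -/
theorem exp_sum_le {ι : Type} [Fintype ι] (w x : ι → ℝ) (hw : ∀ i, 0 ≤ w i) (hs : ∑ i, w i = 1) :
    exp (∑ i, w i * x i) ≤ ∑ i, w i * exp (x i) := by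
  have := convexOn_exp.map_sum_le (t := univ) (w := w) (p := x) (fun i _ => hw i) hs
    (fun _ _ => Set.mem_univ _)
  simpa using this

/-- The overlap weight of two witnesses. -/
noncomputable def ov (p : Ω → ℝ) (S S' : Finset Ω) : ℝ :=
  if Disjoint S S' then 0 else ∏ a ∈ S ∩ S', (p a)⁻¹

theorem ov_nonneg {p : Ω → ℝ} (h0 : ∀ a, 0 < p a) (S S' : Finset Ω) : 0 ≤ ov p S S' := by
  unfold ov; split_ifs
  · exact le_rfl
  · exact prod_nonneg fun a _ => (inv_pos.2 (h0 a)).le

/-- The normalised witness count. -/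
noncomputable def Zc (p : Ω → ℝ) (wt : Finset Ω → ℝ) (ω : Finset Ω) : ℝ :=
  ∑ S : Finset Ω, if S ⊆ ω then wt S * (∏ a ∈ S, p a)⁻¹ else 0

theorem janson_step {p : Ω → ℝ} (h0 : ∀ a, 0 < p a) (h1 : ∀ a, p a ≤ 1) (wt : Finset Ω → ℝ)
    (hpi : ∀ S, 0 ≤ wt S) (hs : ∑ S, wt S = 1) {s : ℝ} (hs0 : 0 ≤ s) :
    Ex p (fun ω => exp (-s * Zc p wt ω)) * exp (-s * ∑ S, ∑ S', wt S * wt S' * ov p S S')
      ≤ Ex p (fun ω => Zc p wt ω * exp (-s * Zc p wt ω)) := by
  have hP : ∀ S : Finset Ω, 0 < ∏ a ∈ S, p a := fun S => prod_pos fun a _ => h0 a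
  have hc : ∀ S : Finset Ω, 0 ≤ wt S * (∏ a ∈ S, p a)⁻¹ := fun S =>
    mul_nonneg (hpi S) (inv_pos.2 (hP S)).le
  set ψ := Ex p (fun ω => exp (-s * Zc p wt ω)) with hψ
  have hψ0 : 0 ≤ ψ := by
    have := Ex_mono h0 h1 (f := fun _ => 0) (g := fun ω => exp (-s * Zc p wt ω))
      (fun _ => (exp_pos _).le)
    rwa [Ex_const] at this
  have e1 : Ex p (fun ω => Zc p wt ω * exp (-s * Zc p wt ω))
      = ∑ S, wt S * Ex p (fun ω => exp (-s * Zc p wt (ω ∪ S))) := by
    have : (fun ω => Zc p wt ω * exp (-s * Zc p wt ω)) = fun ω => ∑ S : Finset Ω,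
        (wt S * (∏ a ∈ S, p a)⁻¹) * (if S ⊆ ω then exp (-s * Zc p wt ω) else 0) := by
      funext ω
      generalize exp (-s * Zc p wt ω) = c
      rw [Zc, sum_mul]
      refine sum_congr rfl fun S _ => ?_
      split_ifs <;> simp
    rw [this, Ex_sum]
    refine sum_congr rfl fun S _ => ?_
    rw [Ex_const_mul, Ex_union p S (fun ω => exp (-s * Zc p wt ω))]
    have := (hP S).ne'
    field_simp
  have key : ∀ S : Finset Ω, ψ * exp (-s * ∑ S', wt S' * ov p S S')
      ≤ Ex p (fun ω => exp (-s * Zc p wt (ω ∪ S))) := by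
    intro S
    set Z2 : Finset Ω → ℝ := fun ω => ∑ S' : Finset Ω,
      if ¬ Disjoint S S' ∧ S' \ S ⊆ ω then wt S' * (∏ a ∈ S', p a)⁻¹ else 0 with hZ2
    have a1 : ∀ ω, Zc p wt (ω ∪ S) ≤ Zc p wt ω + Z2 ω := by
      intro ω
      rw [Zc, Zc, hZ2, ← sum_add_distrib]
      refine sum_le_sum fun S' _ => ?_
      by_cases hb : S' ⊆ ω ∪ S
      · rw [if_pos hb]
        by_cases hd : Disjoint S S'
        · have : S' ⊆ ω := fun x hx => (mem_union.1 (hb hx)).resolve_right
            (fun h => disjoint_left.1 hd h hx)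
          simp [this, hd]
        · have : S' \ S ⊆ ω := fun x hx =>
            (mem_union.1 (hb (mem_sdiff.1 hx).1)).resolve_right (mem_sdiff.1 hx).2
          rw [if_pos (show ¬ Disjoint S S' ∧ S' \ S ⊆ ω from ⟨hd, this⟩)]
          have : 0 ≤ if S' ⊆ ω then wt S' * (∏ a ∈ S', p a)⁻¹ else 0 := by
            split_ifs
            · exact hc S'
            · exact le_rfl
          linarith
      · rw [if_neg hb]
        refine add_nonneg ?_ ?_ <;> split_ifs <;> first | exact hc S' | exact le_rfl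
    have a2 : Ex p Z2 = ∑ S', wt S' * ov p S S' := by
      rw [hZ2, Ex_sum]
      refine sum_congr rfl fun S' _ => ?_
      unfold ov
      by_cases hd : Disjoint S S'
      · simp [hd, Ex_const]
      · have : (fun ω => if ¬ Disjoint S S' ∧ S' \ S ⊆ ω then wt S' * (∏ a ∈ S', p a)⁻¹ else 0)
            = fun ω => (wt S' * (∏ a ∈ S', p a)⁻¹) * (if S' \ S ⊆ ω then 1 else 0) := by
          funext ω; simp [hd]
        rw [this, Ex_const_mul, Ex_subset, if_neg hd, prod_inv_distrib, inter_comm,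
          ← prod_inter_mul_prod_sdiff S' S p]
        have := (hP (S' ∩ S)).ne'
        have := (hP (S' \ S)).ne'
        field_simp
    have mZ : Monotone (Zc p wt) := by
      intro ω ω' h
      refine sum_le_sum fun S' _ => ?_
      by_cases hb : S' ⊆ ω
      · rw [if_pos hb, if_pos (hb.trans h)]
      · rw [if_neg hb]; split_ifs
        · exact hc S'
        · exact le_rfl
    have mZ2 : Monotone Z2 := by
      intro ω ω' h
      refine sum_le_sum fun S' _ => ?_
      by_cases hb : ¬ Disjoint S S' ∧ S' \ S ⊆ ω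
      · rw [if_pos hb, if_pos ⟨hb.1, hb.2.trans h⟩]
      · rw [if_neg hb]; split_ifs
        · exact hc S'
        · exact le_rfl
    have a3 := harris h0 h1 (f := fun ω => exp (-s * Zc p wt ω)) (g := fun ω => exp (-s * Z2 ω))
      (fun _ => (exp_pos _).le) (fun _ => (exp_pos _).le)
      (fun ω ω' h => exp_le_exp.2 (by nlinarith [mZ h]))
      (fun ω ω' h => exp_le_exp.2 (by nlinarith [mZ2 h]))
    have a4 : exp (-s * ∑ S', wt S' * ov p S S') ≤ Ex p (fun ω => exp (-s * Z2 ω)) := by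
      have := exp_sum_le (prob p) (fun ω => -s * Z2 ω) (prob_nonneg h0 h1) (sum_prob p)
      rw [← a2, ← Ex_const_mul]
      exact this
    calc _ ≤ ψ * Ex p (fun ω => exp (-s * Z2 ω)) := by gcongr
      _ ≤ _ := a3
      _ ≤ _ := Ex_mono h0 h1 fun ω => by
        rw [← exp_add, exp_le_exp]; nlinarith [a1 ω]
  have a5 := exp_sum_le wt (fun S => -s * ∑ S', wt S' * ov p S S') hpi hs
  have e3 : ∑ S, wt S * (-s * ∑ S', wt S' * ov p S S')
      = -s * ∑ S, ∑ S', wt S * wt S' * ov p S S' := by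
    rw [mul_sum]
    refine sum_congr rfl fun S _ => ?_
    rw [mul_sum, mul_sum, mul_sum]
    exact sum_congr rfl fun _ _ => by ring
  rw [e3] at a5
  rw [e1]
  calc _ ≤ ψ * ∑ S, wt S * exp (-s * ∑ S', wt S' * ov p S S') := by gcongr
    _ = ∑ S, wt S * (ψ * exp (-s * ∑ S', wt S' * ov p S S')) := by
        rw [mul_sum]; exact sum_congr rfl fun _ _ => by ring
    _ ≤ _ := sum_le_sum fun S _ => mul_le_mul_of_nonneg_left (key S) (hpi S)

open Classical in
theorem janson {p : Ω → ℝ} (h0 : ∀ a, 0 < p a) (h1 : ∀ a, p a ≤ 1) (wt : Finset Ω → ℝ)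
    (hpi : ∀ S, 0 ≤ wt S) (hs : ∑ S, wt S = 1) {Δ : ℝ} (hΔ0 : 0 < Δ)
    (hΔ : ∑ S, ∑ S', wt S * wt S' * ov p S S' ≤ Δ) :
    Ex p (fun ω => if ∀ S, wt S ≠ 0 → ¬ S ⊆ ω then 1 else 0) ≤ exp (-(1 / (3 * Δ))) := by
  set ψ : ℝ → ℝ := fun s => Ex p (fun ω => exp (-s * Zc p wt ω)) with hψ
  have hd : ∀ s, HasDerivAt ψ (-Ex p (fun ω => Zc p wt ω * exp (-s * Zc p wt ω))) s := by
    intro s
    have : HasDerivAt (fun s => ∑ ω : Finset Ω, prob p ω * exp (-s * Zc p wt ω))
        (∑ ω : Finset Ω, prob p ω * (exp (-s * Zc p wt ω) * (-1 * Zc p wt ω))) s := by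
      refine HasDerivAt.fun_sum fun ω _ => HasDerivAt.const_mul _ ?_
      exact ((hasDerivAt_neg s).mul_const _).exp
    have e : -Ex p (fun ω => Zc p wt ω * exp (-s * Zc p wt ω))
        = ∑ ω : Finset Ω, prob p ω * (exp (-s * Zc p wt ω) * (-1 * Zc p wt ω)) := by
      unfold Ex
      rw [← sum_neg_distrib]
      exact sum_congr rfl fun _ _ => by ring
    rw [e]
    exact this
  have hψ0 : ∀ s, 0 ≤ ψ s := fun s => by
    have := Ex_mono h0 h1 (f := fun _ => 0) (g := fun ω => exp (-s * Zc p wt ω))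
      (fun _ => (exp_pos _).le)
    rwa [Ex_const] at this
  set φ : ℝ → ℝ := fun s => ψ s * exp (s / 3) with hφ
  have hdφ : ∀ s, HasDerivAt φ (-Ex p (fun ω => Zc p wt ω * exp (-s * Zc p wt ω)) * exp (s / 3)
      + ψ s * (exp (s / 3) * (1 / 3))) s := fun s =>
    (hd s).mul ((hasDerivAt_id s).div_const 3).exp
  have hanti : AntitoneOn φ (Set.Icc 0 (1 / Δ)) := by
    refine antitoneOn_of_deriv_nonpos (convex_Icc _ _)
      (fun s _ => (hdφ s).continuousAt.continuousWithinAt)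
      (fun s _ => (hdφ s).differentiableAt.differentiableWithinAt) fun s hs' => ?_
    rw [(hdφ s).deriv]
    have hs2 := interior_subset hs'
    have a1 := janson_step h0 h1 wt hpi hs hs2.1
    have a2 : 1 / 3 ≤ exp (-s * ∑ S, ∑ S', wt S * wt S' * ov p S S') := by
      have b1 : s * Δ ≤ 1 := by
        have := hs2.2; rwa [le_div_iff₀ hΔ0] at this
      have b2 : -1 ≤ -s * ∑ S, ∑ S', wt S * wt S' * ov p S S' := by nlinarith [hs2.1]
      refine le_trans ?_ (exp_le_exp.2 b2)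
      rw [exp_neg, one_div]
      exact inv_anti₀ (exp_pos 1) (by linarith [exp_one_lt_d9])
    have a3 : ψ s * (1 / 3) ≤ Ex p (fun ω => Zc p wt ω * exp (-s * Zc p wt ω)) :=
      le_trans (mul_le_mul_of_nonneg_left a2 (hψ0 s)) a1
    have := exp_pos (s / 3)
    nlinarith
  have h2 : φ (1 / Δ) ≤ φ 0 :=
    hanti ⟨le_rfl, by positivity⟩ ⟨by positivity, le_rfl⟩ (by positivity)
  have h3 : φ 0 = 1 := by simp [hφ, hψ, Ex_const]
  have h4 : ψ (1 / Δ) ≤ exp (-(1 / (3 * Δ))) := by
    rw [h3] at h2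
    have e : 1 / Δ / 3 = 1 / (3 * Δ) := by field_simp
    simp only [hφ, e] at h2
    rw [exp_neg, ← one_div, le_div_iff₀ (exp_pos _)]
    exact h2
  refine le_trans (Ex_mono h0 h1 fun ω => ?_) h4
  split_ifs with h
  · have : Zc p wt ω = 0 := by
      refine sum_eq_zero fun S _ => ?_
      split_ifs with h'
      · have : wt S = 0 := by by_contra hne; exact h S hne h'
        simp [this]
      · rfl
    simp [this]
  · exact (exp_pos _).le

end Vale.Agent.P230
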