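import Vale.Agent.P230.Window

/-! Numerical estimates and the lower bound for both covering densities. -/

namespace Vale.Agent.P230

open MeasureTheory Real Finset Metric Filter
open scoped ENNReal Pointwise Topology

theorem pow_le_exp_mul {s : ℝ} (hs : 0 ≤ s) (k : ℕ) : s ^ k ≤ exp (k * s) := by
  rw [exp_nat_mul]
  gcongr
  linarith [add_one_le_exp s]

theorem num_hb {s k0 : ℝ} (hs : 1024 ≤ s) (hk0 : 0 ≤ k0) (hk : k0 ≤ s ^ 8) :
    k0 ^ 2 * (32 * exp (56 + 65536 * s - 256 * s ^ 2)) ≤ 1 := by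
  have hs0 : 0 ≤ s := by linarith
  have h1 := pow_le_exp_mul hs0 17
  calc _ ≤ (s ^ 8) ^ 2 * (s * exp (56 + 65536 * s - 256 * s ^ 2)) := by gcongr; linarith
    _ = s ^ 17 * exp (56 + 65536 * s - 256 * s ^ 2) := by ring
    _ ≤ exp ((17 : ℕ) * s) * exp (56 + 65536 * s - 256 * s ^ 2) := by gcongr
    _ ≤ 1 := by
      rw [← exp_add, exp_le_one_iff]; push_cast; nlinarith

theorem num_hr {s θ : ℝ} (hs : 1024 ≤ s) (hθ : θ ≤ s ^ 5 / 64) :
    2 * θ * exp (-s + 1 / 4096) ≤ 1 / 8 := by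
  have hs0 : 0 < s := by linarith
  have h1 := Real.pow_div_factorial_le_exp s hs0.le 6
  have h2 : s ^ 5 ≤ exp s := by
    refine le_trans ?_ h1
    rw [le_div_iff₀ (by positivity)]
    have : s ^ 6 = s ^ 5 * s := by ring
    rw [this]
    gcongr
    norm_num [Nat.factorial]; linarith
  have h3 : exp (1 / 4096 : ℝ) ≤ 4 := by
    have : exp (1 / 4096 : ℝ) ≤ exp 1 := exp_le_exp.2 (by norm_num)
    linarith [exp_one_lt_d9]
  rw [exp_add, exp_neg]
  have h4 : θ * (exp s)⁻¹ ≤ 1 / 64 := by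
    rw [← div_eq_mul_inv, div_le_iff₀ (exp_pos _)]; linarith
  have h5 : 0 < (exp s)⁻¹ := by positivity
  rcases le_total θ 0 with h | h
  · have : 0 ≤ (exp s)⁻¹ * exp (1 / 4096) := by positivity
    nlinarith
  · have : 0 ≤ θ * (exp s)⁻¹ := by positivity
    nlinarith

theorem num_main {n : ℕ} {s : ℝ} (hs : 1024 ≤ s) (hsn : s ^ 4 = n) {N : ℕ} (hN0 : 0 < N)
    (hN : (N : ℝ) ≤ n ^ 2 * 2 ^ n) {k0 Δ : ℝ} (hk0 : 0 ≤ k0) (hk : k0 ≤ n ^ 2) (hΔ0 : 0 < Δ)
    (hΔ : Δ ≤ 32 * ((N : ℝ) ^ 2 * (1 / 16) ^ n) + 2 * (k0 ^ 2 * (32 * exp (56 + 65536 * s - n)))) :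
    (((N + 1) * (4 * (24576 * n ^ 2) + 1) ^ (n * N) : ℕ) : ℝ) * exp (-(1 / (3 * Δ))) < 1 / 3 := by
  have hs0 : 0 ≤ s := by linarith
  have hn1 : (1 : ℝ) ≤ n := by rw [← hsn]; exact one_le_pow₀ (by linarith)
  have hN1 : (1 : ℝ) ≤ N := by exact_mod_cast hN0
  set G : ℝ := 4 * (24576 * n ^ 2) + 1 with hG
  have h1 : (((N + 1) * (4 * (24576 * n ^ 2) + 1) ^ (n * N) : ℕ) : ℝ)
      ≤ exp (N + (n * N : ℕ) * G) := by
    rw [exp_add]
    push_cast [← hG]
    have := pow_le_exp_mul (s := G) (by positivity) (n * N)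
    push_cast at this
    gcongr
    exact add_one_le_exp _
  have h2 : N + (n * N : ℕ) * G + 2 ≤ 98308 * (n : ℝ) ^ 5 * 2 ^ n := by
    push_cast
    have a1 : (1 : ℝ) ≤ n ^ 2 := one_le_pow₀ hn1
    have a2 : (1 : ℝ) ≤ n * N := one_le_mul_of_one_le_of_one_le hn1 hN1
    calc _ ≤ n * N * (G + 3) := by nlinarith
      _ ≤ n * (n ^ 2 * 2 ^ n) * (98308 * n ^ 2) := by gcongr; rw [hG]; linarith
      _ = _ := by ring
  have l1 : (1 / 2 : ℝ) ≤ exp (-(1 / 4)) := by linarith [add_one_le_exp (-(1 / 4 : ℝ))]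
  have l2 : 2 * exp (-1 : ℝ) ≤ exp (-(1 / 4)) := by
    have : exp (-1 : ℝ) ≤ 3 / 8 := by
      rw [exp_neg]; refine inv_le_of_inv_le₀ (by norm_num) ?_; linarith [exp_one_gt_d9]
    linarith [add_one_le_exp (-(1 / 4 : ℝ))]
  set E := exp (56 + 65536 * s) with hE
  have hE1 : 1 ≤ E := one_le_exp (by positivity)
  have h3 : 2 ^ n * Δ ≤ 96 * (n : ℝ) ^ 4 * E * exp (-(1 / 4)) ^ n := by
    have a1 : (2 : ℝ) ^ n * ((N : ℝ) ^ 2 * (1 / 16) ^ n) ≤ (n : ℝ) ^ 4 * E * exp (-(1 / 4)) ^ n := by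
      calc _ ≤ (2 : ℝ) ^ n * (((n : ℝ) ^ 2 * 2 ^ n) ^ 2 * (1 / 16) ^ n) := by gcongr
        _ = (n : ℝ) ^ 4 * 1 * (2 * 2 * 2 * (1 / 16)) ^ n := by simp only [mul_pow]; ring
        _ ≤ _ := by gcongr; linarith
    have a2 : (2 : ℝ) ^ n * (k0 ^ 2 * exp (56 + 65536 * s - n))
        ≤ (n : ℝ) ^ 4 * E * exp (-(1 / 4)) ^ n := by
      have e : exp (56 + 65536 * s - n) = E * exp (-1) ^ n := by
        rw [hE, ← exp_nat_mul, ← exp_add]; congr 1; ring
      rw [e]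
      calc _ ≤ (2 : ℝ) ^ n * (((n : ℝ) ^ 2) ^ 2 * (E * exp (-1) ^ n)) := by gcongr
        _ = (n : ℝ) ^ 4 * E * (2 * exp (-1)) ^ n := by rw [mul_pow]; ring
        _ ≤ _ := by gcongr
    have a3 := mul_le_mul_of_nonneg_left hΔ (show (0 : ℝ) ≤ 2 ^ n by positivity)
    nlinarith
  have h4 : 3 * Δ * (98308 * (n : ℝ) ^ 5 * 2 ^ n) ≤ 1 := by
    have a1 := pow_le_exp_mul hs0 39
    have a2 : (28312704 : ℝ) ≤ s ^ 3 := le_trans (by norm_num) (pow_le_pow_left₀ (by norm_num) hs 3)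
    calc _ = 3 * 98308 * (n : ℝ) ^ 5 * (2 ^ n * Δ) := by ring
      _ ≤ 3 * 98308 * (n : ℝ) ^ 5 * (96 * (n : ℝ) ^ 4 * E * exp (-(1 / 4)) ^ n) := by gcongr
      _ = 28312704 * (n : ℝ) ^ 9 * E * exp (-(1 / 4)) ^ n := by ring
      _ ≤ s ^ 3 * (n : ℝ) ^ 9 * E * exp (-(1 / 4)) ^ n := by gcongr
      _ = s ^ 39 * E * exp (-(1 / 4)) ^ n := by rw [← hsn]; ring
      _ ≤ exp ((39 : ℕ) * s) * E * exp (-(1 / 4)) ^ n := by gcongr
      _ ≤ 1 := by
        rw [hE, ← exp_nat_mul, ← exp_add, ← exp_add, exp_le_one_iff, ← hsn]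
        have : 1024 ^ 3 ≤ s ^ 3 := by gcongr
        push_cast
        nlinarith
  have h5 : N + (n * N : ℕ) * G + 2 ≤ 1 / (3 * Δ) := by
    rw [le_div_iff₀ (by positivity)]
    nlinarith
  calc _ ≤ exp (N + (n * N : ℕ) * G) * exp (-(1 / (3 * Δ))) := by gcongr
    _ ≤ exp (-2) := by rw [← exp_add, exp_le_exp]; linarith
    _ < 1 / 3 := by
      rw [exp_neg, one_div]
      refine inv_strictAnti₀ (by norm_num) ?_
      have := add_one_lt_exp (x := 2) (by norm_num)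
      linarith

theorem lower_core {n : ℕ} (hn : 2 ^ 40 ≤ n) :
    ∃ K : Set (En n), IsConvexBody K ∧ ENNReal.ofReal (1 / 4) * vB n ≤ volume K ∧
      ∀ X : Set (En n), K + X = Set.univ → ∀ R : ℝ, 4 * n ≤ R → (X ∩ cube n (R + 2)).Finite →
        ¬ ((X ∩ cube n (R + 2)).encard : ℝ≥0∞) * vB n
          ≤ ENNReal.ofReal (n * log n / 16793600 * (2 * (R + 2)) ^ n) := by
  classical
  have hn' : (1024 : ℝ) ^ 4 ≤ n := by
    have : ((2 ^ 40 : ℕ) : ℝ) ≤ n := by exact_mod_cast hn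
    exact le_trans (by norm_num) this
  have hn0 : (0 : ℝ) < n := lt_of_lt_of_le (by norm_num) hn'
  have hn1 : 1 ≤ n := by exact_mod_cast hn0
  set s : ℝ := √(√n) with hsdef
  have hsn : s ^ 4 = n := by
    rw [show s ^ 4 = (s ^ 2) ^ 2 by ring, hsdef, sq_sqrt (sqrt_nonneg _), sq_sqrt hn0.le]
  have hs : 1024 ≤ s := by
    by_contra h
    have : s ^ 4 < 1024 ^ 4 := pow_lt_pow_left₀ (not_le.1 h) (sqrt_nonneg _) (by norm_num)
    linarith
  have hs0 : 0 < s := by linarith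
  have hlog : log n = 4 * log s := by rw [← hsn, log_pow]; norm_num
  have hlog0 : 0 < log s := log_pos (by linarith)
  have hlog1 : log s ≤ s := (log_le_sub_one_of_pos hs0).trans (by linarith)
  set θ : ℝ := n * log n / 16793600 with hθ
  have hθ' : θ = n * log s / 4198400 := by rw [hθ, hlog]; ring
  have hθ0 : 0 < θ := by rw [hθ']; positivity
  have hθ1 : θ ≤ s ^ 5 / 4198400 := by
    rw [hθ', ← hsn, pow_succ s 4]; gcongr
  have hs5 : s ^ 5 ≤ n ^ 2 := by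
    rw [← hsn, ← pow_mul]; exact pow_le_pow_right₀ (by linarith) (by norm_num)
  set N : ℕ := ⌈8 * θ * 2 ^ n⌉₊ with hNdef
  have hN0 : 0 < N := Nat.ceil_pos.2 (by positivity)
  have hN0' : (0 : ℝ) < N := by exact_mod_cast hN0
  have hN : (N : ℝ) ≤ n ^ 2 * 2 ^ n := by
    have a1 := Nat.ceil_lt_add_one (show 0 ≤ 8 * θ * 2 ^ n by positivity)
    have a2 : (1 : ℝ) ≤ 2 ^ n := one_le_pow₀ (by norm_num)
    have a3 : 8 * θ + 1 ≤ n ^ 2 := by nlinarith
    rw [← hNdef] at a1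
    nlinarith
  have h256 : (256 : ℝ) ^ n ≤ s ^ n := by gcongr; linarith
  have hL1 : 1 ≤ s ^ n / (8 * N ^ 2) := by
    rw [le_div_iff₀ (by positivity), one_mul]
    refine le_trans ?_ h256
    have a1 : (n : ℝ) ≤ 2 ^ n := by exact_mod_cast Nat.lt_two_pow_self.le
    have a2 : (8 : ℝ) ≤ n := by linarith
    calc 8 * (N : ℝ) ^ 2 ≤ 2 ^ n * (((2 : ℝ) ^ n) ^ 2 * 2 ^ n) ^ 2 := by
          gcongr
          · linarith
          · refine hN.trans ?_; gcongr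
      _ = (2 ^ 7) ^ n := by rw [← pow_mul, ← pow_mul]; ring
      _ ≤ _ := by gcongr; norm_num
  set L : ℕ := ⌊s ^ n / (8 * N ^ 2)⌋₊ with hLdef
  have hL0 : 0 < L := Nat.floor_pos.2 hL1
  have hL0' : (1 : ℝ) ≤ L := by exact_mod_cast hL0
  have hL : L * ((N : ℝ) ^ 2 * (1 / s) ^ n) ≤ 1 / 8 := by
    calc _ ≤ s ^ n / (8 * N ^ 2) * ((N : ℝ) ^ 2 * (1 / s) ^ n) := by
          gcongr; exact Nat.floor_le (by positivity)
      _ = _ := by rw [one_div_pow]; field_simp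
  have hL2 : exp (32800 * (64 * θ)) / L ≤ 16 * ((N : ℝ) ^ 2 * (1 / 16) ^ n) := by
    have a1 : s ^ n / (8 * N ^ 2) < L + 1 := Nat.lt_floor_add_one _
    have a2 : s ^ n ≤ 16 * N ^ 2 * L := by
      rw [div_lt_iff₀ (by positivity)] at a1
      have : (0 : ℝ) ≤ N ^ 2 := by positivity
      nlinarith
    have a3 : exp (32800 * (64 * θ)) * 16 ^ n ≤ s ^ n := by
      have b1 : exp (32800 * (64 * θ)) ^ 2 = s ^ n := by
        rw [← exp_nat_mul, hθ']
        conv_rhs => rw [← exp_log hs0, ← exp_nat_mul]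
        congr 1; push_cast; ring
      have b2 : (16 : ℝ) ^ n ≤ exp (32800 * (64 * θ)) := by
        rw [← pow_le_pow_iff_left₀ (by positivity) (exp_pos _).le two_ne_zero, b1, ← pow_mul,
          mul_comm, pow_mul]
        norm_num [h256]
      calc _ ≤ exp (32800 * (64 * θ)) * exp (32800 * (64 * θ)) := by gcongr
        _ = _ := by rw [← b1]; ring
    rw [div_le_iff₀ (by positivity), one_div_pow]
    have : 16 * ((N : ℝ) ^ 2 * (1 / 16 ^ n)) * L = 16 * N ^ 2 * L / 16 ^ n := by ring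
    rw [this, le_div_iff₀ (by positivity)]
    linarith
  obtain ⟨K, hK1, hK2, hK3, hK4, hK5, hK6⟩ := exists_body hs hsn hN0 (k0 := 64 * θ) hL0 hL
    (num_hb hs (by positivity) (by
      have : s ^ 5 ≤ s ^ 8 := pow_le_pow_right₀ (by linarith) (by norm_num)
      have : 0 ≤ s ^ 5 := by positivity
      linarith))
    (num_main hs hsn hN0 hN (k0 := 64 * θ) (by positivity) (by
      have : 0 ≤ s ^ 5 := by positivity
      linarith) (by positivity) (by linarith))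
  refine ⟨K, ⟨hK1, hK2, hK3⟩, hK5, fun X hX R hR hfin hcard => ?_⟩
  have hR0 : 0 < R := by linarith
  have ht2 : (64 * s ^ 2) ^ 2 = 4096 * n := by rw [← hsn]; ring
  obtain ⟨w, hw, Y, hY1, hY2, hY3, hY4⟩ := exists_window hn1 hθ0
    (η := 2 * (1 / (64 * s ^ 2) ^ 2)) (r := 1 - (1 / s ^ 3 - 1 / (64 * s ^ 2) ^ 2))
    (by rw [ht2]; field_simp; norm_num)
    (by
      have : (n : ℝ) * (1 - (1 / s ^ 3 - 1 / (64 * s ^ 2) ^ 2) - 1) = -s + 1 / 4096 := by
        rw [← hsn]; field_simp; ring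
      rw [this]
      have : 0 ≤ s ^ 5 := by positivity
      exact num_hr hs (by linarith))
    (Nat.le_ceil _) hfin.toFinset hR0
    (by
      rw [← Set.Finite.cast_ncard_eq hfin, Set.ncard_eq_toFinset_card _ hfin] at hcard
      refine le_trans (le_of_eq (by simp)) (hcard.trans (ENNReal.ofReal_le_ofReal ?_))
      have a1 : (2 * (R + 2)) ^ n ≤ 2 * (2 * R) ^ n := by
        have e : 2 * (R + 2) = (2 / R + 1) * (2 * R) := by field_simp; ring
        rw [e, mul_pow]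
        gcongr
        calc (2 / R + 1) ^ n ≤ exp (2 / R) ^ n := by gcongr; exact add_one_le_exp _
          _ = exp (n * (2 / R)) := (exp_nat_mul _ _).symm
          _ ≤ exp (1 / 2) := by
            rw [exp_le_exp, ← mul_div_assoc, div_le_iff₀ hR0]; linarith
          _ ≤ 2 := by
            have : exp (1 / 2 : ℝ) ^ 2 ≤ 2 ^ 2 := by
              rw [← exp_nat_mul]; norm_num; linarith [exp_one_lt_d9]
            exact (pow_le_pow_iff_left₀ (exp_pos _).le (by norm_num) two_ne_zero).1 this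
      nlinarith)
  rw [sub_sub_cancel] at hY4
  refine hK6 Y hY1 hY2 hY4 fun y hy => ?_
  have : w + y ∈ K + X := by rw [hX]; trivial
  obtain ⟨k, hk, x, hx, hkx⟩ := Set.mem_add.1 this
  have e : x - w = y - k := by rw [← sub_eq_zero] at hkx ⊢; rw [← hkx]; abel
  have hxw : ‖x - w‖ ≤ 2 := by
    rw [e]
    have a1 : ‖y‖ ≤ 1 := by simpa using hy
    have a2 : ‖k‖ ≤ 1 := by simpa using hK4 hk
    linarith [norm_sub_le y k]
  refine ⟨x - w, hY3 x ?_ hxw, by rw [e]; simpa using hk⟩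
  refine hfin.mem_toFinset.2 ⟨hx, fun i => ?_⟩
  have a1 : |(x - w) i| ≤ 2 := (PiLp.norm_apply_le (x - w) i).trans hxw
  have a2 := hw i
  have : x i = (x - w) i + w i := by simp
  rw [this]
  linarith [abs_add_le ((x - w) i) (w i)]

end Vale.Agent.P230
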