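import Vale.Agent.P230.Lower

/-! The lower bound for the worst covering densities. -/

namespace Vale.Agent.P230

open MeasureTheory Real Finset Metric Filter
open scoped ENNReal Pointwise Topology

theorem convex_cube (n : ℕ) (R : ℝ) : Convex ℝ (cube n R) := by
  intro x hx y hy a b ha hb hab i
  have : (a • x + b • y) i = a * x i + b * y i := by simp
  rw [this]
  have h1 := hx i
  have h2 := hy i
  calc _ ≤ |a * x i| + |b * y i| := abs_add_le _ _
    _ = a * |x i| + b * |y i| := by rw [abs_mul, abs_mul, abs_of_nonneg ha, abs_of_nonneg hb]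
    _ ≤ a * R + b * R := by gcongr
    _ = R := by rw [← add_mul, hab, one_mul]

theorem lattice_finite {n : ℕ} (Λ : Submodule ℤ (En n)) [DiscreteTopology Λ] (R : ℝ) :
    ((Λ : Set (En n)) ∩ cube n R).Finite := by
  rw [Set.inter_comm]
  refine Metric.finite_isBounded_inter_isClosed DiscreteTopology.isDiscrete (isBounded_cube n R) ?_
  rw [← Submodule.coe_toAddSubgroup]
  have : DiscreteTopology Λ.toAddSubgroup := inferInstanceAs (DiscreteTopology Λ)
  exact AddSubgroup.isClosed_of_discrete

theorem card_scale {n : ℕ} (Λ : Set (En n)) {m : ℝ} (hm : 0 < m) :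
    Nat.card (cube n 1 ∩ m⁻¹ • Λ : Set (En n)) = (Λ ∩ cube n m).ncard := by
  have : (cube n 1 ∩ m⁻¹ • Λ : Set (En n)) = (fun x => m⁻¹ • x) '' (Λ ∩ cube n m) := by
    ext z
    constructor
    · rintro ⟨h1, x, hx, rfl⟩
      refine ⟨x, ⟨hx, fun i => ?_⟩, rfl⟩
      have := h1 i
      simp only [PiLp.smul_apply, smul_eq_mul, abs_mul, abs_of_pos (inv_pos.2 hm)] at this
      rwa [inv_mul_le_iff₀ hm, mul_one] at this
    · rintro ⟨x, ⟨hx, h1⟩, rfl⟩
      refine ⟨fun i => ?_, x, hx, rfl⟩
      simp only [PiLp.smul_apply, smul_eq_mul, abs_mul, abs_of_pos (inv_pos.2 hm)]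
      rw [inv_mul_le_iff₀ hm, mul_one]
      exact h1 i
  rw [this, Nat.card_coe_set_eq, Set.ncard_image_of_injective _
    (smul_right_injective _ (inv_pos.2 hm).ne')]

theorem lower_both {n : ℕ} (hn : 2 ^ 40 ≤ n) :
    ∃ K : Set (En n), IsConvexBody K ∧ ENNReal.ofReal (n * log n / 67174400) ≤ thetaT K ∧
      ENNReal.ofReal (n * log n / 67174400) ≤ thetaL K := by
  obtain ⟨K, hK, hvol, hmain⟩ := lower_core hn
  have hn1 : (1 : ℝ) ≤ n := by exact_mod_cast le_trans (by norm_num) hn
  have hlog : 0 ≤ log (n : ℝ) := log_nonneg hn1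
  set θ : ℝ := n * log n / 16793600 with hθ
  have hθ0 : 0 ≤ θ := by positivity
  have e : (n * log n / 67174400 : ℝ) = 1 / 4 * θ := by rw [hθ]; ring
  rw [e]
  refine ⟨K, hK, ?_, ?_⟩
  · refine le_iInf fun X => le_iInf fun hX => le_iInf fun hcov => ?_
    by_contra hlt
    rw [not_le] at hlt
    have h1 : ENNReal.ofReal (1 / 4) * (upperDensity X * vB n)
        < ENNReal.ofReal (1 / 4) * ENNReal.ofReal θ := by
      rw [← ENNReal.ofReal_mul (by norm_num)]
      refine lt_of_le_of_lt ?_ hlt
      rw [mul_comm (upperDensity X), ← mul_assoc]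
      gcongr
    have h2 : upperDensity X < ENNReal.ofReal θ / vB n := by
      rw [ENNReal.lt_div_iff_mul_lt (Or.inl (vB_ne_zero n)) (Or.inl (vB_ne_top n))]
      exact lt_of_mul_lt_mul_left' h1
    have h3 := eventually_lt_of_limsup_lt h2
    obtain ⟨R, hR1, hR2⟩ := (h3.and (eventually_ge_atTop (4 * (n : ℝ) + 2))).exists
    refine hmain X hcov (R - 2) (by linarith) (hX _ (isBounded_cube _ _)) ?_
    rw [sub_add_cancel]
    have hpos : 0 < (2 * R) ^ n := pow_pos (by linarith) _
    rw [ENNReal.lt_div_iff_mul_lt (Or.inl (vB_ne_zero n)) (Or.inl (vB_ne_top n)),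
      ← ENNReal.mul_div_right_comm,
      ENNReal.div_lt_iff (Or.inl (by simpa using hpos)) (Or.inl ENNReal.ofReal_ne_top)] at hR1
    rw [ENNReal.ofReal_mul hθ0]
    exact hR1.le
  · refine le_iInf fun Λ => le_iInf fun _ => le_iInf fun _ => le_iInf fun hcov => ?_
    by_contra hlt
    rw [not_le] at hlt
    have hc := ZLattice.covolume_pos Λ volume
    have hv0 : 0 < (vB n).toReal := ENNReal.toReal_pos (vB_ne_zero n) (vB_ne_top n)
    have h1 : (vB n).toReal < θ * ZLattice.covolume Λ := by
      rw [ENNReal.div_lt_iff (Or.inl (by simpa using hc)) (Or.inl ENNReal.ofReal_ne_top)] at hlt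
      have := lt_of_le_of_lt hvol hlt
      rw [← ENNReal.ofReal_toReal (vB_ne_top n), ← ENNReal.ofReal_mul (by norm_num),
        ← ENNReal.ofReal_mul (by positivity),
        ENNReal.ofReal_lt_ofReal_iff_of_nonneg (by positivity)] at this
      linarith
    have h2 := ZLattice.covolume.tendsto_card_div_pow' Λ (isBounded_cube n 1)
      (measurableSet_cube n 1) ((convex_cube n 1).addHaar_frontier volume)
    rw [finrank_euclideanSpace_fin, measureReal_def, vol_cube n zero_le_one,
      ENNReal.toReal_ofReal (by positivity), mul_one] at h2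
    have h3 : 2 ^ n / ZLattice.covolume Λ < θ * 2 ^ n / (vB n).toReal := by
      rw [div_lt_div_iff₀ hc hv0]
      have : (0 : ℝ) < 2 ^ n := by positivity
      nlinarith
    obtain ⟨m, hm1, hm2⟩ := ((h2.eventually (gt_mem_nhds h3)).and
      (eventually_ge_atTop (4 * n + 2))).exists
    have hm3 : 4 * (n : ℝ) + 2 ≤ m := by exact_mod_cast hm2
    have hm0 : (0 : ℝ) < m := by linarith
    refine hmain Λ hcov (m - 2) (by linarith) (lattice_finite Λ _) ?_
    rw [sub_add_cancel, ← Set.Finite.cast_ncard_eq (lattice_finite Λ _),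
      ← ENNReal.ofReal_toReal (vB_ne_top n), ENat.toENNReal_coe, ← ENNReal.ofReal_natCast,
      ← ENNReal.ofReal_mul (by positivity)]
    refine ENNReal.ofReal_le_ofReal ?_
    rw [card_scale _ hm0, div_lt_div_iff₀ (by positivity) hv0] at hm1
    rw [mul_pow]
    linarith

end Vale.Agent.P230
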