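import Vale.Agent.P230.Rogers

namespace Vale.Agent.P230

open Real Filter

theorem order_main : ∀ᶠ n : ℕ in atTop,
    ENNReal.ofReal (1 / 67174400 * (n * log n)) ≤ ThetaT n ∧
    ThetaT n ≤ ENNReal.ofReal (36 * (n * log n)) ∧
    ENNReal.ofReal (1 / 67174400 * (n * log n)) ≤ ThetaL n := by
  filter_upwards [eventually_ge_atTop (2 ^ 40)] with n hn
  obtain ⟨K, hK, h1, h2⟩ := lower_both hn
  have e : (1 / 67174400 * (n * log n) : ℝ) = n * log n / 67174400 := by ring
  rw [e]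
  refine ⟨h1.trans (le_iSup₂_of_le K hK le_rfl), iSup₂_le fun K hK => thetaT_le ?_ hK,
    h2.trans (le_iSup₂_of_le K hK le_rfl)⟩
  exact le_trans (by norm_num) hn

theorem not_linear : ¬ ∃ C : ℝ, ∀ n : ℕ, 1 ≤ n → ∀ K : Set (EuclideanSpace ℝ (Fin n)),
    IsConvexBody K → thetaT K ≤ ENNReal.ofReal (C * n) := by
  rintro ⟨C, hC⟩
  have hlog : Tendsto (fun n : ℕ => log (n : ℝ)) atTop atTop :=
    tendsto_log_atTop.comp tendsto_natCast_atTop_atTop
  obtain ⟨n, ⟨h1, h2⟩, h3⟩ := ((order_main.and (eventually_ge_atTop 1)).and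
    (hlog.eventually (eventually_gt_atTop (67174400 * |C|)))).exists
  have h4 : ThetaT n ≤ ENNReal.ofReal (C * n) := iSup₂_le fun K hK => hC n h2 K hK
  have hn : (0 : ℝ) < n := by exact_mod_cast h2
  have h5 := h1.1.trans h4
  have h6 : C * n < 1 / 67174400 * (n * log n) := by nlinarith [le_abs_self C]
  have h7 : 0 < 1 / 67174400 * (n * log n) := by
    have : 0 < log (n : ℝ) := lt_of_le_of_lt (by positivity) h3
    positivity
  exact absurd h5 (not_le.2 ((ENNReal.ofReal_lt_ofReal_iff h7).2 h6))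

end Vale.Agent.P230
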