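import Vale.Agent.P230.LowerMain

/-! The classical upper bound of order `n log n` for translative coverings. -/

namespace Vale.Agent.P230

open MeasureTheory Real Finset Metric Filter
open scoped ENNReal Pointwise Topology

theorem sum_mem_card_smul {n : ℕ} {K : Set (En n)} (hK : Convex ℝ K) (hne : K.Nonempty)
    {ι : Type} (f : ι → En n) (hf : ∀ i, f i ∈ K) (J : Finset ι) :
    ∑ i ∈ J, f i ∈ (J.card : ℝ) • K := by
  classical
  induction J using Finset.induction_on with
  | empty => simp [Set.zero_smul_set hne]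
  | insert a J ha ih =>
    rw [sum_insert ha, card_insert_of_notMem ha, Nat.cast_succ, add_comm (J.card : ℝ),
      hK.add_smul zero_le_one (by positivity), one_smul]
    exact Set.add_mem_add (hf a) ih

theorem exists_center {n : ℕ} (hn : 1 ≤ n) {K : Set (En n)} (hc : IsCompact K) (hK : Convex ℝ K)
    (hne : K.Nonempty) : ∃ c : En n, ∀ x ∈ K, c - (n : ℝ)⁻¹ • x ∈ K := by
  classical
  have hn' : (0 : ℝ) < n := by exact_mod_cast hn
  obtain ⟨k0, hk0⟩ := hne
  have := Convex.helly_theorem_compact' (𝕜 := ℝ)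
    (F := fun x : K => (fun z => (n : ℝ)⁻¹ • (x : En n) + z) '' K)
    (fun x => hK.translate _)
    (fun x => hc.image (by fun_prop)) (fun I hI => by
      rw [finrank_euclideanSpace_fin] at hI
      refine ⟨(n : ℝ)⁻¹ • (∑ i ∈ I, (i : En n) + ((n + 1 - I.card : ℕ) : ℝ) • k0), ?_⟩
      simp only [Set.mem_iInter]
      intro j hj
      have h1 := sum_mem_card_smul hK ⟨k0, hk0⟩ (fun i : K => (i : En n)) (fun i => i.2) (I.erase j)
      have h2 : ∑ i ∈ I.erase j, (i : En n) + ((n + 1 - I.card : ℕ) : ℝ) • k0 ∈ (n : ℝ) • K := by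
        have e : (n : ℝ) = ((I.erase j).card : ℝ) + ((n + 1 - I.card : ℕ) : ℝ) := by
          have := card_erase_add_one hj
          exact_mod_cast (by omega)
        rw [e, hK.add_smul (by positivity) (by positivity)]
        exact Set.add_mem_add h1 (Set.smul_mem_smul_set hk0)
      obtain ⟨y, hy, hy2⟩ := h2
      refine ⟨y, hy, ?_⟩
      rw [← add_sum_erase I _ hj, add_assoc, ← hy2]
      simp only [smul_add, smul_smul, inv_mul_cancel₀ hn'.ne', one_smul])
  obtain ⟨c, hc⟩ := this
  refine ⟨c, fun x hx => ?_⟩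
  obtain ⟨y, hy, hy2⟩ := Set.mem_iInter.1 hc ⟨x, hx⟩
  rw [← hy2]; simpa using hy

theorem vol_sub_preimage {n : ℕ} (L : Set (En n)) (z : En n) :
    volume {x : En n | z - x ∈ L} = volume L :=
  (Measure.measurePreserving_sub_left volume z).measure_preimage_equiv
    (f := MeasurableEquiv.subLeft z) L

theorem greedy_step {n : ℕ} {L U Q : Set (En n)} (hL : MeasurableSet L) (hU : MeasurableSet U)
    (hQ : MeasurableSet Q) (hQ0 : volume Q ≠ 0) (hQ1 : volume Q ≠ ∞) (hU1 : volume U ≠ ∞)
    (hL1 : volume L ≠ ∞) (h : ∀ z ∈ U, ∀ x, z - x ∈ L → x ∈ Q) :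
    ∃ x, volume.real (U \ {z | z - x ∈ L})
      ≤ (1 - volume.real L / volume.real Q) * volume.real U := by
  have hm : MeasurableSet {q : En n × En n | q.2 - q.1 ∈ L} :=
    hL.preimage (by fun_prop)
  have hm1 : ∀ x, MeasurableSet {z : En n | z - x ∈ L} := fun x => hL.preimage (by fun_prop)
  have hm2 : ∀ z, MeasurableSet {x : En n | z - x ∈ L} := fun x => hL.preimage (by fun_prop)
  have key : ∫⁻ x in Q, volume ({z | z - x ∈ L} ∩ U) = volume L * volume U := by
    have e1 : ∀ x, volume ({z | z - x ∈ L} ∩ U)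
        = ∫⁻ z in U, Set.indicator {q : En n × En n | q.2 - q.1 ∈ L} 1 (x, z) := by
      intro x
      rw [← Measure.restrict_apply (hm1 x), ← lintegral_indicator_one (hm1 x)]
      rfl
    simp_rw [e1]
    rw [lintegral_lintegral_swap
      (f := fun x z => Set.indicator {q : En n × En n | q.2 - q.1 ∈ L} 1 (x, z))
      (measurable_one.indicator hm).aemeasurable, ← setLIntegral_const]
    refine setLIntegral_congr_fun hU fun z hz => ?_
    have e2 : ∫⁻ x in Q, Set.indicator {q : En n × En n | q.2 - q.1 ∈ L} 1 (x, z)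
        = volume ({x | z - x ∈ L} ∩ Q) := by
      rw [← Measure.restrict_apply (hm2 z), ← lintegral_indicator_one (hm2 z)]
      rfl
    beta_reduce
    rw [e2, Set.inter_eq_left.2 (show {x | z - x ∈ L} ⊆ Q from h z hz), vol_sub_preimage]
  obtain ⟨x, _, hx⟩ := exists_setLAverage_le (f := fun x => volume ({z | z - x ∈ L} ∩ U)) hQ0
    hQ.nullMeasurableSet (by rw [key]; exact ENNReal.mul_ne_top hL1 hU1)
  rw [setLAverage_eq, key] at hx
  refine ⟨x, ?_⟩
  have h1 := ENNReal.toReal_mono (ne_top_of_le_ne_top hU1 (measure_mono Set.inter_subset_right)) hx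
  rw [ENNReal.toReal_div, ENNReal.toReal_mul] at h1
  have h2 := measureReal_inter_add_sdiff (μ := volume) (s := U) (hm1 x) hU1
  rw [Set.inter_comm] at h2
  simp only [measureReal_def] at h2 ⊢
  have e : (1 - (volume L).toReal / (volume Q).toReal) * (volume U).toReal
      = (volume U).toReal - (volume L).toReal * (volume U).toReal / (volume Q).toReal := by ring
  rw [e]
  linarith

theorem greedy_cover {n : ℕ} {L U Q : Set (En n)} (hL : MeasurableSet L) (hU : MeasurableSet U)
    (hQ : MeasurableSet Q) (hQ0 : volume Q ≠ 0) (hQ1 : volume Q ≠ ∞) (hU1 : volume U ≠ ∞)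
    (hL1 : volume L ≠ ∞) (h : ∀ z ∈ U, ∀ x, z - x ∈ L → x ∈ Q)
    (ha : volume.real L / volume.real Q ≤ 1) (N : ℕ) :
    ∃ X : Finset (En n), X.card ≤ N ∧ volume.real (U \ ⋃ x ∈ X, {z | z - x ∈ L})
      ≤ (1 - volume.real L / volume.real Q) ^ N * volume.real U := by
  classical
  induction N with
  | zero => exact ⟨∅, le_rfl, by simp⟩
  | succ N ih =>
    obtain ⟨X, h1, h2⟩ := ih
    obtain ⟨x, hx⟩ := greedy_step (U := U \ ⋃ x ∈ X, {z | z - x ∈ L}) hL
      (hU.diff (Finset.measurableSet_biUnion _ fun x _ => hL.preimage (by fun_prop))) hQ hQ0 hQ1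
      (ne_top_of_le_ne_top hU1 (measure_mono Set.sdiff_subset)) hL1 (fun z hz => h z hz.1)
    refine ⟨insert x X, (card_insert_le _ _).trans (by omega), ?_⟩
    rw [Finset.set_biUnion_insert, Set.union_comm, ← Set.sdiff_sdiff, pow_succ', mul_assoc]
    exact hx.trans (mul_le_mul_of_nonneg_left h2 (by linarith))

theorem exists_packing {n : ℕ} {S : En n → Set (En n)} {U : Set (En n)} (hU : volume U ≠ ∞)
    (hS : ∀ y, MeasurableSet (S y)) {a : ℝ} (ha : 0 < a) (hv : ∀ y, volume.real (S y) = a) :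
    ∃ Y : Finset (En n), Y.card * a ≤ volume.real U ∧
      ∀ p, S p ⊆ U → ∃ y ∈ Y, (S p ∩ S y).Nonempty := by
  classical
  let P : Finset (En n) → Prop := fun Y => (∀ y ∈ Y, S y ⊆ U) ∧ (Y : Set (En n)).PairwiseDisjoint S
  have hb : ∀ Y, P Y → Y.card * a ≤ volume.real U := by
    rintro Y ⟨h1, h2⟩
    have := measureReal_biUnion_finset (μ := volume) h2 (fun y _ => hS y)
      (fun y hy => ne_top_of_le_ne_top hU (measure_mono (h1 y hy)))
    simp only [hv, sum_const, nsmul_eq_mul] at this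
    rw [← this]
    exact measureReal_mono (Set.iUnion₂_subset h1) hU
  have hbdd : BddAbove {k : ℕ | ∃ Y, P Y ∧ Y.card = k} := by
    refine ⟨⌈volume.real U / a⌉₊, ?_⟩
    rintro k ⟨Y, hY, rfl⟩
    have := (le_div_iff₀ ha).2 (hb Y hY)
    exact_mod_cast this.trans (Nat.le_ceil _)
  obtain ⟨Y, hY, hYc⟩ := Nat.sSup_mem (s := {k : ℕ | ∃ Y, P Y ∧ Y.card = k})
    ⟨0, ∅, ⟨by simp, by simp⟩, rfl⟩ hbdd
  refine ⟨Y, hb Y hY, fun p hp => ?_⟩
  by_contra hcon
  push Not at hcon
  have hne : (S p).Nonempty := by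
    refine nonempty_of_measure_ne_zero (μ := volume) fun h => ?_
    have := hv p
    rw [measureReal_def, h] at this
    simp at this
    linarith
  have hpY : p ∉ Y := fun h => by
    have := hcon p h
    rw [Set.inter_self] at this
    exact hne.ne_empty this
  have hP : P (insert p Y) := by
    refine ⟨fun y hy => ?_, ?_⟩
    · rcases mem_insert.1 hy with rfl | h
      · exact hp
      · exact hY.1 y h
    · rw [coe_insert]
      exact hY.2.insert fun y hy _ => Set.disjoint_iff_inter_eq_empty.2 (hcon y hy)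
  have := le_csSup hbdd ⟨insert p Y, hP, rfl⟩
  rw [card_insert_of_notMem hpY, ← hYc] at this
  omega

theorem one_add_pow_le_two {n : ℕ} {x : ℝ} (hx : 0 ≤ x) (h : n * x ≤ 1 / 2) : (x + 1) ^ n ≤ 2 := by
  calc (x + 1) ^ n ≤ exp x ^ n := by gcongr; exact add_one_le_exp _
    _ = exp (n * x) := (exp_nat_mul _ _).symm
    _ ≤ exp (1 / 2) := exp_le_exp.2 h
    _ ≤ 2 := by
      have : exp (1 / 2 : ℝ) ^ 2 ≤ 2 ^ 2 := by
        rw [← exp_nat_mul]; norm_num; linarith [exp_one_lt_d9]
      exact (pow_le_pow_iff_left₀ (exp_pos _).le (by norm_num) two_ne_zero).1 this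

theorem cover_cube {n : ℕ} (hn : 2 ≤ n) {K : Set (En n)} (hK : IsConvexBody K) :
    ∃ ρ : ℝ, 0 < ρ ∧ ∃ X : Finset (En n), (∀ p ∈ cube n ρ, ∃ x ∈ X, p - x ∈ K) ∧
      volume.real K * X.card ≤ 18 * (n * log n) * (2 * ρ) ^ n := by
  classical
  obtain ⟨hK1, hK2, hK3⟩ := hK
  have hn' : (2 : ℝ) ≤ n := by exact_mod_cast hn
  have hn0 : (0 : ℝ) < n := by linarith
  set ε : ℝ := (n : ℝ)⁻¹ with hε
  have hε0 : 0 < ε := by positivity
  have hε1 : ε ≤ 1 := inv_le_one_of_one_le₀ (by linarith)
  set L : Set (En n) := (1 + ε)⁻¹ • K with hL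
  have hLc : IsCompact L := hK1.smul _
  have hLv : Convex ℝ L := hK2.smul _
  have hKL : K = L + ε • L := by
    have := hLv.add_smul zero_le_one hε0.le
    rw [one_smul] at this
    rw [← this, hL, smul_smul, mul_inv_cancel₀ (by positivity), one_smul]
  have hK0 : 0 < volume.real K :=
    ENNReal.toReal_pos (Measure.measure_pos_of_nonempty_interior volume hK3).ne'
      hK1.measure_lt_top.ne
  have hsm : ∀ (r : ℝ) (A : Set (En n)), 0 ≤ r → volume.real (r • A) = r ^ n * volume.real A := by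
    intro r A hr
    rw [measureReal_def, Measure.addHaar_smul_of_nonneg _ hr, finrank_euclideanSpace_fin,
      ENNReal.toReal_mul, ENNReal.toReal_ofReal (by positivity), measureReal_def]
  have hL0 : 0 < volume.real L := by rw [hL, hsm _ _ (by positivity)]; positivity
  have hKL3 : volume.real K ≤ 3 * volume.real L := by
    rw [hL, hsm _ _ (by positivity), ← mul_assoc, inv_pow]
    have : (1 + ε) ^ n ≤ 3 := by
      calc (1 + ε) ^ n ≤ exp ε ^ n := by gcongr; linarith [add_one_le_exp ε]
        _ = exp 1 := by rw [← exp_nat_mul, hε, mul_inv_cancel₀ hn0.ne']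
        _ ≤ 3 := by linarith [exp_one_lt_d9]
    have h2 : 1 ≤ 3 * ((1 + ε) ^ n)⁻¹ := by
      rw [← div_eq_mul_inv, le_div_iff₀ (by positivity)]; linarith
    nlinarith
  have hLne : L.Nonempty := (hK3.mono interior_subset).smul_set
  obtain ⟨c, hc⟩ := exists_center (by omega) hLc hLv hLne
  obtain ⟨D, hD0, hD⟩ := hLc.isBounded.exists_pos_norm_le
  have hDi : ∀ x ∈ L, ∀ i, |x i| ≤ D := fun x hx i => (PiLp.norm_apply_le x i).trans (hD x hx)
  set ρ : ℝ := 4 * n * D with hρ
  have hρ0 : 0 < ρ := by positivity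
  have hvr : ∀ r : ℝ, 0 ≤ r → volume.real (cube n r) = (2 * r) ^ n := fun r hr => by
    rw [measureReal_def, vol_cube n hr, ENNReal.toReal_ofReal (by positivity)]
  have hfin : ∀ r : ℝ, volume (cube n r) ≠ ∞ := fun r => (isBounded_cube n r).measure_lt_top.ne
  set V := volume.real (cube n (ρ + 2 * D)) with hV
  have hV0 : 0 < V := by rw [hV, hvr _ (by positivity)]; positivity
  have hV2 : V ≤ 2 * (2 * ρ) ^ n := by
    rw [hV, hvr _ (by positivity)]
    have e : 2 * (ρ + 2 * D) = (1 / (2 * n) + 1) * (2 * ρ) := by rw [hρ]; field_simp; ring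
    rw [e, mul_pow]
    gcongr
    exact one_add_pow_le_two (by positivity) (le_of_eq (by field_simp))
  have hLV : volume.real L ≤ V :=
    measureReal_mono (fun x hx i => (hDi x hx i).trans (by linarith)) (hfin _)
  set a := volume.real L / V with ha
  have ha0 : 0 < a := by positivity
  have ha1 : a ≤ 1 := (div_le_one hV0).2 hLV
  have hlog : 1 ≤ n * log n := by
    have : 1 / 2 ≤ log (n : ℝ) := le_trans (by linarith [log_two_gt_d9]) (log_le_log two_pos hn')
    nlinarith
  set N := ⌈n * log n / a⌉₊ with hN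
  obtain ⟨X0, hX0, hX1⟩ := greedy_cover (L := L) (U := cube n (ρ + D)) (Q := cube n (ρ + 2 * D))
    hLc.measurableSet (measurableSet_cube _ _) (measurableSet_cube _ _)
    (fun h => by rw [hV, measureReal_def, h] at hV0; simp at hV0) (hfin _) (hfin _)
    hLc.measure_lt_top.ne
    (fun z hz x hx i => by
      have h1 := hz i
      have h2 := hDi _ hx i
      have : x i = z i - (z - x) i := by simp
      rw [this]
      linarith [abs_sub (z i) ((z - x) i)]) ha1 N
  set U := cube n (ρ + D) \ ⋃ x ∈ X0, {z | z - x ∈ L} with hU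
  have hU1 : volume.real U ≤ ε ^ n * V := by
    refine hX1.trans (mul_le_mul ?_ (measureReal_mono
      (fun x hx i => (hx i).trans (by linarith)) (hfin _)) measureReal_nonneg (by positivity))
    calc (1 - a) ^ N ≤ exp (-a) ^ N := by
          gcongr
          linarith [add_one_le_exp (-a)]
      _ ≤ exp (n * (-log n)) := by
          rw [← exp_nat_mul, exp_le_exp]
          have := (div_le_iff₀ ha0).1 (Nat.le_ceil (n * log n / a))
          linarith
      _ = ε ^ n := by rw [exp_nat_mul, exp_neg, exp_log hn0]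
  obtain ⟨Y, hY1, hY2⟩ := exists_packing (S := fun y => {z | y - z ∈ ε • L}) (U := U)
    (ne_top_of_le_ne_top (hfin _) (measure_mono Set.sdiff_subset))
    (fun y => (hLc.smul ε).measurableSet.preimage (by fun_prop))
    (a := ε ^ n * volume.real L) (by positivity)
    (fun y => by rw [measureReal_def, vol_sub_preimage, ← measureReal_def, hsm _ _ hε0.le])
  refine ⟨ρ, hρ0, X0 ∪ Y.image (· - c), fun p hp => ?_, ?_⟩
  · by_cases h : {z | p - z ∈ ε • L} ⊆ U
    · obtain ⟨y, hy, z, ⟨a1, ha1, h1⟩, ⟨b1, hb1, h2⟩⟩ := hY2 p h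
      refine ⟨y - c, mem_union_right _ (mem_image_of_mem _ hy), ?_⟩
      have : p - (y - c) = (c - ε • b1) + ε • a1 := by
        simp only at h1 h2
        rw [h1, h2]; abel
      rw [this, hKL]
      exact Set.add_mem_add (hc b1 hb1) (Set.smul_mem_smul_set ha1)
    · obtain ⟨z, ⟨a1, ha1, h1⟩, hz⟩ := Set.not_subset.1 h
      have hz1 : z ∈ cube n (ρ + D) := by
        intro i
        have e : z i = p i - ε * a1 i := by
          have : z = p - ε • a1 := by simp only at h1; rw [h1]; abel
          rw [this]; simp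
        have b1 : |ε * a1 i| ≤ D := by
          rw [abs_mul, abs_of_pos hε0]
          nlinarith [hDi a1 ha1 i, abs_nonneg (a1 i)]
        rw [e]
        linarith [abs_sub (p i) (ε * a1 i), hp i]
      have hz2 : z ∈ ⋃ x ∈ X0, {z | z - x ∈ L} := by
        by_contra h2; exact hz ⟨hz1, h2⟩
      obtain ⟨x, hx, hzx⟩ := Set.mem_iUnion₂.1 hz2
      refine ⟨x, mem_union_left _ hx, ?_⟩
      have : p - x = (z - x) + ε • a1 := by simp only at h1; rw [h1]; abel
      rw [this, hKL]
      exact Set.add_mem_add hzx (Set.smul_mem_smul_set ha1)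
  · have c1 : ((X0 ∪ Y.image (· - c)).card : ℝ) ≤ N + Y.card := by
      exact_mod_cast (card_union_le _ _).trans (add_le_add hX0 card_image_le)
    have c2 : volume.real L * N ≤ (n * log n + 1) * V := by
      have := Nat.ceil_lt_add_one (show 0 ≤ n * log n / a by positivity)
      rw [← hN] at this
      have e : volume.real L * (n * log n / a) = n * log n * V := by rw [ha]; field_simp
      nlinarith
    have c3 : volume.real L * Y.card ≤ V := by
      have := hY1.trans hU1
      have h2 : 0 < ε ^ n := by positivity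
      nlinarith
    have c4 : 0 ≤ (2 * ρ) ^ n := by positivity
    calc _ ≤ 3 * volume.real L * (N + Y.card) :=
          mul_le_mul hKL3 c1 (Nat.cast_nonneg _) (by linarith)
      _ ≤ 3 * ((n * log n + 2) * V) := by nlinarith
      _ ≤ 3 * ((3 * (n * log n)) * (2 * (2 * ρ) ^ n)) := by gcongr; linarith
      _ = _ := by ring

theorem thetaT_le {n : ℕ} (hn : 2 ≤ n) {K : Set (En n)} (hK : IsConvexBody K) :
    thetaT K ≤ ENNReal.ofReal (36 * (n * log n)) := by
  classical
  obtain ⟨ρ, hρ, X1, hcov, hcard⟩ := cover_cube hn hK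
  set f : En n × (Fin n → ℤ) → En n := fun q => q.1 + pt (2 * ρ) q.2 with hf
  set X : Set (En n) := f '' ((X1 : Set (En n)) ×ˢ Set.univ) with hX
  set T : ℝ → Finset (En n) := fun R => X1.biUnion fun x =>
    (Fintype.piFinset fun i => Finset.Icc ⌈(-R - x i) / (2 * ρ)⌉ ⌊(R - x i) / (2 * ρ)⌋).image
      (fun k => f (x, k)) with hT
  have hsub : ∀ R, X ∩ cube n R ⊆ T R := by
    rintro R _ ⟨⟨⟨x, k⟩, ⟨hx, _⟩, rfl⟩, h⟩
    refine mem_coe.2 (mem_biUnion.2 ⟨x, hx, mem_image_of_mem _ ?_⟩)
    refine Fintype.mem_piFinset.2 fun i => Finset.mem_Icc.2 ?_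
    have h1 := abs_le.1 (h i)
    have e : f (x, k) i = x i + 2 * ρ * k i := by simp [hf, pt]
    rw [e] at h1
    rw [Int.ceil_le, Int.le_floor, div_le_iff₀ (by positivity), le_div_iff₀ (by positivity)]
    constructor <;> linarith [h1.1, h1.2]
  have hTc : ∀ R, 0 ≤ R → ((T R).card : ℝ) ≤ X1.card * (R / ρ + 1) ^ n := by
    intro R hR
    have h1 : ((T R).card : ℝ) ≤ ∑ x ∈ X1, ∏ i : Fin n,
        ((Finset.Icc ⌈(-R - x i) / (2 * ρ)⌉ ⌊(R - x i) / (2 * ρ)⌋).card : ℝ) := by
      have := card_biUnion_le.trans (sum_le_sum fun x (_ : x ∈ X1) => card_image_le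
        (s := Fintype.piFinset fun i =>
          Finset.Icc ⌈(-R - x i) / (2 * ρ)⌉ ⌊(R - x i) / (2 * ρ)⌋) (f := fun k => f (x, k)))
      simp only [Fintype.card_piFinset] at this
      exact_mod_cast this
    refine h1.trans ((sum_le_card_nsmul _ _ ((R / ρ + 1) ^ n) fun x _ => ?_).trans (by simp))
    refine le_trans (prod_le_prod (g := fun _ => R / ρ + 1) (fun _ _ => by positivity)
      fun i _ => ?_) (by simp)
    rw [Int.card_Icc]
    have a1 := Int.le_ceil ((-R - x i) / (2 * ρ))
    have a2 := Int.floor_le ((R - x i) / (2 * ρ))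
    have a3 : (R - x i) / (2 * ρ) - (-R - x i) / (2 * ρ) = R / ρ := by field_simp; ring
    rcases le_total (⌊(R - x i) / (2 * ρ)⌋ + 1 - ⌈(-R - x i) / (2 * ρ)⌉) 0 with h | h
    · rw [Int.toNat_of_nonpos h]; simp only [Nat.cast_zero]; positivity
    · rw [← Int.cast_natCast, Int.toNat_of_nonneg h]; push_cast; linarith
  refine iInf_le_of_le X (iInf_le_of_le ?_ (iInf_le_of_le ?_ ?_))
  · intro B hB
    obtain ⟨D, _, hD⟩ := hB.exists_pos_norm_le
    refine (T D).finite_toSet.subset (Set.Subset.trans ?_ (hsub D))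
    exact Set.inter_subset_inter_right _ fun x hx i => (PiLp.norm_apply_le x i).trans (hD x hx)
  · refine Set.eq_univ_of_forall fun z => ?_
    set k : Fin n → ℤ := fun i => round (z i / (2 * ρ)) with hk
    obtain ⟨x, hx, h⟩ := hcov (z - pt (2 * ρ) k) (fun i => by
      have e : (z - pt (2 * ρ) k) i = 2 * ρ * (z i / (2 * ρ) - round (z i / (2 * ρ))) := by
        simp only [hk, pt, PiLp.sub_apply]; field_simp
      rw [e, abs_mul, abs_of_pos (by positivity : 0 < 2 * ρ)]
      nlinarith [abs_sub_round (z i / (2 * ρ))])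
    refine Set.mem_add.2 ⟨_, h, f (x, k), ⟨(x, k), ⟨hx, trivial⟩, rfl⟩, ?_⟩
    simp only [hf]; abel
  · have h1 : upperDensity X ≤ ENNReal.ofReal (2 * X1.card / (2 * ρ) ^ n) := by
      refine limsup_le_of_le (by isBoundedDefault) ?_
      filter_upwards [eventually_ge_atTop (2 * n * ρ), eventually_gt_atTop 0] with R hR hR0
      refine ENNReal.div_le_of_le_mul ?_
      rw [← ENNReal.ofReal_mul (by positivity)]
      have a1 : ((X ∩ cube n R).encard : ℝ≥0∞) ≤ ((T R).card : ℝ≥0∞) := by
        have := Set.encard_le_encard (hsub R)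
        rw [Set.encard_coe_eq_coe_finsetCard] at this
        exact_mod_cast ENat.toENNReal_le.2 this
      refine a1.trans ?_
      rw [← ENNReal.ofReal_natCast]
      refine ENNReal.ofReal_le_ofReal ((hTc R hR0.le).trans ?_)
      have a2 : (ρ / R + 1) ^ n ≤ 2 := one_add_pow_le_two (by positivity) (by
        rw [← mul_div_assoc, div_le_iff₀ hR0]; linarith)
      have e : R / ρ + 1 = (ρ / R + 1) * ((2 * R) / (2 * ρ)) := by field_simp; ring
      rw [e, mul_pow, div_pow]
      calc _ ≤ X1.card * (2 * ((2 * R) ^ n / (2 * ρ) ^ n)) := by gcongr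
        _ = _ := by ring
    refine (mul_le_mul_right h1 _).trans ?_
    rw [← ENNReal.ofReal_toReal hK.1.measure_lt_top.ne, ← ENNReal.ofReal_mul (by positivity)]
    refine ENNReal.ofReal_le_ofReal ?_
    rw [← mul_div_assoc, div_le_iff₀ (by positivity), ← measureReal_def]
    linarith

end Vale.Agent.P230
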