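import Mathlib

/-! Gaussian tail comparisons. -/

namespace Vale.Agent.P230

open MeasureTheory ProbabilityTheory Real Set
open scoped RealInnerProductSpace

/-- Upper tail of the standard Gaussian. -/
noncomputable def Qt (t : ℝ) : ℝ := (gaussianReal 0 1).real (Ioi t)

theorem Qt_eq (t : ℝ) : Qt t = ∫ x in Ioi t, gaussianPDFReal 0 1 x := by
  rw [Qt, Measure.real, gaussianReal_apply_eq_integral _ one_ne_zero, ENNReal.toReal_ofReal]
  exact integral_nonneg fun x => gaussianPDFReal_nonneg _ _ _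

theorem pdf_shift (x u : ℝ) :
    gaussianPDFReal 0 1 (x + u) = exp (-(x * u) - u ^ 2 / 2) * gaussianPDFReal 0 1 x := by
  simp only [gaussianPDFReal, NNReal.coe_one, mul_one, sub_zero]
  rw [mul_left_comm, ← exp_add]
  congr 2
  ring

theorem Qt_shift (t u : ℝ) : Qt (t + u) = ∫ x in Ioi t, gaussianPDFReal 0 1 (x + u) := by
  rw [Qt_eq, ← integral_indicator measurableSet_Ioi, ← integral_indicator measurableSet_Ioi,
    ← integral_add_right_eq_self _ u]
  congr 1
  funext x
  by_cases h : t < x <;> simp [indicator, h]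

theorem integrable_shift (u : ℝ) : Integrable (fun x => gaussianPDFReal 0 1 (x + u)) :=
  (integrable_gaussianPDFReal 0 1).comp_add_right u

theorem Qt_nonneg (t : ℝ) : 0 ≤ Qt t := measureReal_nonneg

theorem Qt_pos (t : ℝ) : 0 < Qt t := by
  rw [Qt, Measure.real]
  refine ENNReal.toReal_pos (fun h => ?_) (measure_ne_top _ _)
  have := gaussianReal_absolutelyContinuous' 0 (v := 1) one_ne_zero h
  simp at this

theorem Qt_anti {t t' : ℝ} (h : t ≤ t') : Qt t' ≤ Qt t :=
  measureReal_mono (Ioi_subset_Ioi h)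

theorem Qt_upper (t : ℝ) {u : ℝ} (hu : 0 ≤ u) : Qt (t + u) ≤ exp (-(t * u)) * Qt t := by
  rw [Qt_shift, Qt_eq, ← integral_const_mul]
  refine setIntegral_mono_on (integrable_shift u).integrableOn
    ((integrable_gaussianPDFReal 0 1).const_mul _).integrableOn measurableSet_Ioi fun x hx => ?_
  rw [pdf_shift]
  refine mul_le_mul_of_nonneg_right (exp_le_exp.2 ?_) (gaussianPDFReal_nonneg _ _ _)
  have : t < x := hx
  nlinarith

theorem Qt_lower {t u : ℝ} (ht : 1 ≤ t) (hu : 0 ≤ u) :
    exp (-((t + 1) * u) - u ^ 2 / 2) * Qt t / 2 ≤ Qt (t + u) := by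
  have h1 : Qt t = (∫ x in Ioc t (t + 1), gaussianPDFReal 0 1 x) + Qt (t + 1) := by
    rw [Qt_eq, Qt_eq, ← setIntegral_union (Ioc_disjoint_Ioi le_rfl) measurableSet_Ioi
      (integrable_gaussianPDFReal 0 1).integrableOn (integrable_gaussianPDFReal 0 1).integrableOn,
      Ioc_union_Ioi_eq_Ioi (by linarith)]
  have h2 : Qt (t + 1) ≤ Qt t / 2 := by
    refine (Qt_upper t zero_le_one).trans ?_
    have : exp (-(t * 1)) ≤ 1 / 2 := by
      rw [exp_neg, one_div]
      refine inv_anti₀ (by norm_num) ?_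
      linarith [add_one_le_exp (t * 1)]
    nlinarith [Qt_nonneg t]
  have h3 : exp (-((t + 1) * u) - u ^ 2 / 2) * ∫ x in Ioc t (t + 1), gaussianPDFReal 0 1 x
      ≤ Qt (t + u) := by
    rw [Qt_shift, ← integral_const_mul]
    refine le_trans (setIntegral_mono_on
      ((integrable_gaussianPDFReal 0 1).const_mul _).integrableOn
      (integrable_shift u).integrableOn measurableSet_Ioc fun x hx => ?_)
      (setIntegral_mono_set (integrable_shift u).integrableOn
        (ae_of_all _ fun x => gaussianPDFReal_nonneg _ _ _) (Ioc_subset_Ioi_self.eventuallyLE))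
    rw [pdf_shift]
    refine mul_le_mul_of_nonneg_right (exp_le_exp.2 ?_) (gaussianPDFReal_nonneg _ _ _)
    nlinarith [hx.2]
  refine le_trans ?_ h3
  rw [mul_div_assoc]
  exact mul_le_mul_of_nonneg_left (by linarith) (exp_pos _).le

variable {E : Type} [NormedAddCommGroup E] [InnerProductSpace ℝ E] [FiniteDimensional ℝ E]
  [MeasurableSpace E] [BorelSpace E]

theorem gauss_half {w : E} (hw : w ≠ 0) (s : ℝ) :
    (stdGaussian E).real {g | s < ⟪w, g⟫} = Qt (s / ‖w‖) := by
  have hn : 0 < ‖w‖ := norm_pos_iff.2 hw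
  set L : StrongDual ℝ E := innerSL ℝ (‖w‖⁻¹ • w) with hL
  have h1 : ‖L‖ = 1 := by
    rw [hL, innerSL_apply_norm, norm_smul, norm_inv, norm_norm, inv_mul_cancel₀ hn.ne']
  have h2 : (stdGaussian E).map L = gaussianReal 0 1 := by
    rw [IsGaussian.map_eq_gaussianReal, integral_strongDual_stdGaussian, variance_dual_stdGaussian,
      h1]
    simp
  rw [Qt, ← h2, map_measureReal_apply L.continuous.measurable measurableSet_Ioi]
  congr 1
  ext g
  simp only [mem_ofPred_eq, mem_preimage, mem_Ioi, hL, innerSL_apply_apply, real_inner_smul_left]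
  rw [div_lt_iff₀ hn, mul_comm, ← mul_assoc, mul_inv_cancel₀ hn.ne', one_mul]

theorem gauss_half_le (w : E) {s τ : ℝ} (hs : 0 ≤ s) (h : τ * ‖w‖ ≤ s) :
    (stdGaussian E).real {g | s < ⟪w, g⟫} ≤ Qt τ := by
  by_cases hw : w = 0
  · subst hw
    have : {g : E | s < ⟪(0 : E), g⟫} = ∅ := by
      ext g; simp [hs]
    rw [this, measureReal_empty]
    exact Qt_nonneg τ
  · rw [gauss_half hw]
    exact Qt_anti ((le_div_iff₀ (norm_pos_iff.2 hw)).2 h)

end Vale.Agent.P230
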