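import Vale.Agent.P230.Cuts

/-! Selection of well spread test points. -/

namespace Vale.Agent.P230

open MeasureTheory Real Finset Metric
open scoped ENNReal

/-- Volume of the unit ball. -/
noncomputable def vB (n : ℕ) : ℝ≥0∞ := volume (closedBall (0 : En n) 1)

theorem vB_ne_zero (n : ℕ) : vB n ≠ 0 :=
  (measure_closedBall_pos volume (0 : En n) one_pos).ne'

theorem vB_ne_top (n : ℕ) : vB n ≠ ∞ := measure_closedBall_lt_top.ne

theorem vol_closedBall {n : ℕ} (x : En n) {r : ℝ} (hr : 0 ≤ r) :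
    volume (closedBall x r) = ENNReal.ofReal (r ^ n) * vB n := by
  rw [Measure.addHaar_closedBall' volume x hr, finrank_euclideanSpace_fin]; rfl

theorem ofReal_mul_vB_lt (n : ℕ) {c : ℝ} (hc : c < 1) : ENNReal.ofReal c * vB n < vB n := by
  conv_rhs => rw [← one_mul (vB n)]
  exact ENNReal.mul_lt_mul_left (vB_ne_zero n) (vB_ne_top n) (ENNReal.ofReal_lt_one.2 hc)

def close {n : ℕ} (X : Finset (En n)) (d : ℝ) (y y' : En n) : Prop :=
  ∃ x ∈ X, ∃ x' ∈ X, ‖(y - x) - (y' - x')‖ < d

theorem close_symm {n : ℕ} {X : Finset (En n)} {d : ℝ} {y y' : En n} (h : close X d y y') :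
    close X d y' y := by
  obtain ⟨x, hx, x', hx', h⟩ := h
  exact ⟨x', hx', x, hx, by rwa [norm_sub_rev]⟩

theorem measurableSet_close {n : ℕ} (X : Finset (En n)) (d : ℝ) (y' : En n) :
    MeasurableSet {y | close X d y y'} := by
  have : {y | close X d y y'} = ⋃ x ∈ X, ⋃ x' ∈ X, {y : En n | ‖(y - x) - (y' - x')‖ < d} := by
    ext y; simp [close]
  rw [this]
  refine (isOpen_biUnion fun x _ => isOpen_biUnion fun x' _ => ?_).measurableSet
  exact isOpen_lt (by fun_prop) continuous_const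

theorem vol_close {n : ℕ} (X : Finset (En n)) {N : ℝ} (hN : (X.card : ℝ) ≤ N) {d : ℝ} (hd : 0 ≤ d)
    (y' : En n) : volume {y | close X d y y'} ≤ ENNReal.ofReal (N ^ 2 * d ^ n) * vB n := by
  have hsub : {y | close X d y y'} ⊆ ⋃ q ∈ X ×ˢ X, closedBall (y' - q.2 + q.1) d := by
    rintro y ⟨x, hx, x', hx', h⟩
    simp only [Set.mem_iUnion]
    refine ⟨(x, x'), mem_product.2 ⟨hx, hx'⟩, ?_⟩
    rw [mem_closedBall, dist_eq_norm]
    have e : y - (y' - x' + x) = (y - x) - (y' - x') := by abel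
    change ‖y - (y' - x' + x)‖ ≤ d
    rw [e]; exact h.le
  refine (measure_mono hsub).trans ((measure_biUnion_finset_le _ _).trans ?_)
  simp_rw [vol_closedBall _ hd]
  rw [sum_const, card_product, nsmul_eq_mul, ← mul_assoc, ENNReal.ofReal_mul (sq_nonneg _)]
  gcongr
  rw [← ENNReal.ofReal_natCast]
  refine ENNReal.ofReal_le_ofReal ?_
  push_cast
  have : (0 : ℝ) ≤ X.card := by positivity
  nlinarith

open Classical in
theorem exists_next {n : ℕ} (X : Finset (En n)) {N : ℝ} (hN : (X.card : ℝ) ≤ N) (hN0 : 0 < N)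
    {d0 d1 : ℝ} (hd0 : 0 ≤ d0) (hd1 : 0 < d1) (G : Set (En n))
    (hG : volume (closedBall (0 : En n) 1 \ G) ≤ ENNReal.ofReal (1 / 2) * vB n)
    {L l : ℕ} (hl : l ≤ L) (hL0 : 0 < L) (hL : L * (N ^ 2 * d0 ^ n) ≤ 1 / 8) (y : Fin l → En n) :
    ∃ z ∈ closedBall (0 : En n) 1, z ∈ G ∧ (∀ i, ¬ close X d0 z (y i)) ∧
      (∑ i, if close X d1 z (y i) then (1 : ℝ) else 0) ≤ 4 * L * (N ^ 2 * d1 ^ n) := by
  by_contra hcon
  push Not at hcon
  have hl' : (l : ℝ) ≤ L := by exact_mod_cast hl
  have hL' : (0 : ℝ) < L := by exact_mod_cast hL0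
  set m : ℝ := 4 * L * (N ^ 2 * d1 ^ n) with hm
  have hm0 : 0 < m := by positivity
  set f : En n → ℝ≥0∞ := fun z => ∑ i, Set.indicator {z | close X d1 z (y i)} 1 z with hf
  have hfm : Measurable f :=
    Finset.measurable_fun_sum _ fun i _ => measurable_one.indicator (measurableSet_close X d1 _)
  have hsub : closedBall (0 : En n) 1 ⊆ (closedBall (0 : En n) 1 \ G) ∪
      ((⋃ i, {z | close X d0 z (y i)}) ∪ {z | ENNReal.ofReal m ≤ f z}) := by
    intro z hz
    by_cases h1 : z ∈ G
    · right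
      by_cases h2 : ∃ i, close X d0 z (y i)
      · left; exact Set.mem_iUnion.2 h2
      · right
        have := hcon z hz h1 (not_exists.1 h2)
        change ENNReal.ofReal m ≤ f z
        refine (ENNReal.ofReal_le_ofReal this.le).trans (le_of_eq ?_)
        rw [ENNReal.ofReal_sum_of_nonneg (fun i _ => by split_ifs <;> norm_num)]
        refine sum_congr rfl fun i _ => ?_
        by_cases h : close X d1 z (y i) <;> simp [Set.indicator, h]
    · left; exact ⟨hz, h1⟩
  have h1 : volume (⋃ i, {z | close X d0 z (y i)}) ≤ ENNReal.ofReal (1 / 8) * vB n := by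
    refine (measure_iUnion_fintype_le _ _).trans ?_
    refine (sum_le_card_nsmul _ _ _ fun i _ => vol_close X hN hd0 (y i)).trans ?_
    rw [card_univ, Fintype.card_fin, nsmul_eq_mul, ← mul_assoc, ← ENNReal.ofReal_natCast,
      ← ENNReal.ofReal_mul (by positivity)]
    gcongr
    refine le_trans ?_ hL
    gcongr
  have h2 : volume {z | ENNReal.ofReal m ≤ f z} ≤ ENNReal.ofReal (1 / 4) * vB n := by
    have a1 := mul_meas_ge_le_lintegral (μ := volume) hfm (ENNReal.ofReal m)
    have a2 : ∫⁻ z, f z ≤ ENNReal.ofReal m * (ENNReal.ofReal (1 / 4) * vB n) := by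
      rw [hf, lintegral_finsetSum _
        fun i _ => measurable_one.indicator (measurableSet_close X d1 _)]
      simp_rw [lintegral_indicator_one (measurableSet_close X d1 _)]
      refine (sum_le_card_nsmul _ _ _ fun i _ => vol_close X hN hd1.le (y i)).trans ?_
      rw [card_univ, Fintype.card_fin, nsmul_eq_mul, ← mul_assoc, ← ENNReal.ofReal_natCast,
        ← ENNReal.ofReal_mul (by positivity), ← mul_assoc (ENNReal.ofReal m),
        ← ENNReal.ofReal_mul hm0.le]
      refine mul_le_mul_left (ENNReal.ofReal_le_ofReal ?_) _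
      have : 0 ≤ N ^ 2 * d1 ^ n := by positivity
      rw [hm]; nlinarith
    exact (ENNReal.mul_le_mul_iff_right (by simpa using hm0) ENNReal.ofReal_ne_top).1 (a1.trans a2)
  have h3 : vB n ≤ ENNReal.ofReal (7 / 8) * vB n := by
    calc vB n ≤ _ := measure_mono hsub
      _ ≤ _ := measure_union_le _ _
      _ ≤ ENNReal.ofReal (1 / 2) * vB n +
          (ENNReal.ofReal (1 / 8) * vB n + ENNReal.ofReal (1 / 4) * vB n) :=
          add_le_add hG ((measure_union_le _ _).trans (add_le_add h1 h2))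
      _ = _ := by
          rw [← add_mul, ← add_mul, ← ENNReal.ofReal_add (by norm_num) (by norm_num),
            ← ENNReal.ofReal_add (by norm_num) (by norm_num)]
          norm_num
  exact absurd h3 (not_le.2 (ofReal_mul_vB_lt n (by norm_num)))

open Classical in
theorem exists_tests {n : ℕ} (X : Finset (En n)) {N : ℝ} (hN : (X.card : ℝ) ≤ N) (hN0 : 0 < N)
    {d0 d1 : ℝ} (hd0 : 0 ≤ d0) (hd1 : 0 < d1) (G : Set (En n))
    (hG : volume (closedBall (0 : En n) 1 \ G) ≤ ENNReal.ofReal (1 / 2) * vB n)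
    {L : ℕ} (hL0 : 0 < L) (hL : L * (N ^ 2 * d0 ^ n) ≤ 1 / 8) (l : ℕ) : l ≤ L →
    ∃ y : Fin l → En n, (∀ i, y i ∈ closedBall (0 : En n) 1 ∧ y i ∈ G) ∧
      (∀ i i', i ≠ i' → ¬ close X d0 (y i) (y i')) ∧
      (∑ i, ∑ i', if i ≠ i' ∧ close X d1 (y i) (y i') then (1 : ℝ) else 0)
        ≤ 8 * l * L * (N ^ 2 * d1 ^ n) := by
  induction l with
  | zero => intro _; exact ⟨Fin.elim0, fun i => i.elim0, fun i => i.elim0, by simp⟩
  | succ l ih =>
    intro hl
    obtain ⟨y, h1, h2, h3⟩ := ih (by omega)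
    obtain ⟨z, hz1, hz2, hz3, hz4⟩ :=
      exists_next X hN hN0 hd0 hd1 G hG (show l ≤ L by omega) hL0 hL y
    refine ⟨Fin.cons z y, fun i => ?_, fun i i' => ?_, ?_⟩
    · refine Fin.cases ?_ (fun i => ?_) i
      · exact ⟨hz1, hz2⟩
      · exact h1 i
    · refine Fin.cases ?_ (fun i => ?_) i <;> refine Fin.cases ?_ (fun i' => ?_) i'
      · intro h; exact absurd rfl h
      · intro _; exact hz3 i'
      · intro _ h; exact hz3 i (close_symm h)
      · intro h; exact h2 i i' fun e => h (by rw [e])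
    · simp only [Fin.sum_univ_succ, Fin.cons_zero, Fin.cons_succ, ne_eq, not_true_eq_false,
        false_and, if_false, zero_add, Fin.succ_ne_zero, not_false_eq_true, true_and,
        Fin.succ_inj, (Fin.succ_ne_zero _).symm, sum_add_distrib]
      have e : (∑ i, if close X d1 (y i) z then (1 : ℝ) else 0)
          = ∑ i, if close X d1 z (y i) then (1 : ℝ) else 0 :=
        sum_congr rfl fun i _ => if_congr ⟨close_symm, close_symm⟩ rfl rfl
      rw [e]
      push_cast
      simp only [ne_eq] at h3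
      nlinarith

end Vale.Agent.P230
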