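import Vale.Agent.P230.Body
import Vale.Agent.P230.Defs

/-! Choice of a typical window of a sparse point set. -/

namespace Vale.Agent.P230

open MeasureTheory Real Finset Metric
open scoped ENNReal Pointwise

theorem cube_eq (n : ℕ) (R : ℝ) :
    cube n R = WithLp.ofLp ⁻¹' (Set.Icc (fun _ => -R) (fun _ => R) : Set (Fin n → ℝ)) := by
  ext x
  simp only [cube, Set.mem_ofPred_eq, Set.mem_preimage, Set.mem_Icc, Pi.le_def, abs_le]
  exact ⟨fun h => ⟨fun i => (h i).1, fun i => (h i).2⟩, fun h i => ⟨h.1 i, h.2 i⟩⟩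

theorem measurableSet_cube (n : ℕ) (R : ℝ) : MeasurableSet (cube n R) := by
  rw [cube_eq]
  exact (PiLp.volume_preserving_ofLp (Fin n)).measurable measurableSet_Icc

theorem vol_cube (n : ℕ) {R : ℝ} (hR : 0 ≤ R) :
    volume (cube n R) = ENNReal.ofReal ((2 * R) ^ n) := by
  rw [cube_eq, (PiLp.volume_preserving_ofLp (Fin n)).measure_preimage
    measurableSet_Icc.nullMeasurableSet, Real.volume_Icc_pi, prod_const, card_univ,
    Fintype.card_fin, ENNReal.ofReal_pow (by positivity)]
  congr 2
  ring

theorem isBounded_cube (n : ℕ) (R : ℝ) : Bornology.IsBounded (cube n R) := by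
  refine (isBounded_closedBall (x := (0 : En n)) (r := |R| * √n)).subset fun x hx => ?_
  rw [mem_closedBall, dist_zero_right]
  exact norm_le_of_coord x (abs_nonneg _) fun i => (hx i).trans (le_abs_self _)

theorem kap_eq {n : ℕ} (r0 : ℝ) (z : En n) : (kap r0 z : ℝ≥0∞)
    = ∑ j ∈ range (n + 1), Set.indicator (closedBall (0 : En n) (r0 - j / n)) 1 z := by
  classical
  rw [kap, card_filter, Nat.cast_sum]
  refine sum_congr rfl fun j _ => ?_
  by_cases h : ‖z‖ ≤ r0 - j / n <;> simp [Set.indicator, h]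

theorem measurable_kap {n : ℕ} (r0 : ℝ) : Measurable (fun z : En n => (kap r0 z : ℝ≥0∞)) := by
  simp_rw [kap_eq]
  exact Finset.measurable_fun_sum _ fun j _ => measurable_one.indicator measurableSet_closedBall

theorem vol_closedBall_le {n : ℕ} (r : ℝ) :
    volume (closedBall (0 : En n) r) ≤ ENNReal.ofReal (exp (n * (r - 1))) * vB n := by
  rcases lt_or_ge r 0 with h | h
  · rw [closedBall_eq_empty.2 h]; simp
  · rw [vol_closedBall _ h, exp_nat_mul]
    gcongr
    linarith [add_one_le_exp (r - 1)]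

theorem lintegral_kap {n : ℕ} (hn : 1 ≤ n) {η : ℝ} (hη : n * η ≤ 1 / 2) :
    ∫⁻ z : En n, (kap (1 + η) z : ℝ≥0∞) ≤ ENNReal.ofReal 4 * vB n := by
  have hn' : (0 : ℝ) < n := by exact_mod_cast hn
  simp_rw [kap_eq]
  rw [lintegral_finsetSum _ fun j _ => measurable_one.indicator measurableSet_closedBall]
  simp_rw [lintegral_indicator_one measurableSet_closedBall]
  have h1 : exp (1 / 2 : ℝ) ≤ 2 := by
    have : exp (1 / 2 : ℝ) ^ 2 ≤ 2 ^ 2 := by
      rw [← exp_nat_mul]; norm_num; linarith [exp_one_lt_d9]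
    exact (pow_le_pow_iff_left₀ (exp_pos _).le (by norm_num) two_ne_zero).1 this
  have h2 : exp (-1 : ℝ) ≤ 1 / 2 := by
    rw [exp_neg, one_div]; exact inv_anti₀ (by norm_num) (by linarith [exp_one_gt_d9])
  calc _ ≤ ∑ j ∈ range (n + 1), ENNReal.ofReal (2 * (1 / 2) ^ j) * vB n := by
        refine sum_le_sum fun j _ => (vol_closedBall_le _).trans ?_
        refine mul_le_mul_left (ENNReal.ofReal_le_ofReal ?_) _
        have e : (n : ℝ) * (1 + η - j / n - 1) = n * η + j * (-1) := by field_simp; ring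
        rw [e, exp_add, exp_nat_mul (-1)]
        gcongr
        exact (exp_le_exp.2 hη).trans h1
    _ ≤ _ := by
        rw [← sum_mul, ← ENNReal.ofReal_sum_of_nonneg (fun _ _ => by positivity), ← mul_sum]
        gcongr
        linarith [sum_geometric_two_le (n + 1)]

theorem exists_window {n : ℕ} (hn : 1 ≤ n) {θ η r : ℝ} (hθ : 0 < θ) (hη : n * η ≤ 1 / 2)
    (hr : 2 * θ * exp (n * (r - 1)) ≤ 1 / 8) {N : ℕ} (hN : 8 * θ * 2 ^ n ≤ N)
    (Xf : Finset (En n)) {R : ℝ} (hR : 0 < R)
    (hX : (Xf.card : ℝ≥0∞) * vB n ≤ ENNReal.ofReal (2 * θ * (2 * R) ^ n)) :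
    ∃ w ∈ cube n R, ∃ Y : Finset (En n), Y.card ≤ N ∧ (∀ y ∈ Y, ‖y‖ ≤ 2) ∧
      (∀ x ∈ Xf, ‖x - w‖ ≤ 2 → x - w ∈ Y) ∧
      volume (closedBall (0 : En n) 1 \ Good Y η (1 - r) (64 * θ))
        ≤ ENNReal.ofReal (1 / 2) * vB n := by
  classical
  have hN0 : (0 : ℝ) < N := lt_of_lt_of_le (by positivity) hN
  set B := closedBall (0 : En n) 1 with hB
  set ψ : En n → ℝ≥0∞ := fun z => ENNReal.ofReal (1 / (64 * θ)) * (kap (1 + η) z : ℝ≥0∞)
    + Set.indicator (closedBall (0 : En n) r) 1 z with hψ
  have hψm : Measurable ψ :=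
    ((measurable_kap _).const_mul _).add (measurable_one.indicator measurableSet_closedBall)
  have hψi : ∫⁻ z, ψ z ≤ ENNReal.ofReal (1 / (16 * θ) + exp (n * (r - 1))) * vB n := by
    rw [hψ, lintegral_add_left ((measurable_kap _).const_mul _),
      lintegral_const_mul _ (measurable_kap _), lintegral_indicator_one measurableSet_closedBall,
      ENNReal.ofReal_add (by positivity) (by positivity), add_mul]
    refine add_le_add ?_ (vol_closedBall_le r)
    refine (mul_le_mul_right (lintegral_kap hn hη) _).trans (le_of_eq ?_)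
    rw [← mul_assoc, ← ENNReal.ofReal_mul (by positivity)]
    congr 2
    field_simp; norm_num
  set G : En n → ℝ≥0∞ := fun y => ∑ x ∈ Xf, ψ (y - x) with hG
  have hGm : Measurable G := Finset.measurable_fun_sum _ fun x _ => hψm.comp (by fun_prop)
  have hGi : ∫⁻ y, G y = Xf.card * ∫⁻ z, ψ z := by
    rw [hG, lintegral_finsetSum (f := fun x y => ψ (y - x)) _
      fun x _ => hψm.comp (by fun_prop)]
    simp_rw [lintegral_sub_right_eq_self]
    rw [sum_const, nsmul_eq_mul]
  set cnt : En n → ℝ≥0∞ := fun w => ∑ x ∈ Xf, Set.indicator (closedBall x 2) 1 w with hcnt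
  have hcm : Measurable cnt :=
    Finset.measurable_fun_sum _ fun x _ => measurable_one.indicator measurableSet_closedBall
  have hci : ∫⁻ w, cnt w = Xf.card * (ENNReal.ofReal (2 ^ n) * vB n) := by
    rw [hcnt, lintegral_finsetSum _ fun x _ => measurable_one.indicator measurableSet_closedBall]
    simp_rw [lintegral_indicator_one measurableSet_closedBall, vol_closedBall _ zero_le_two]
    rw [sum_const, nsmul_eq_mul]
  have hprod : Measurable (Function.uncurry fun w u : En n => G (w + u)) :=
    hGm.comp (by fun_prop)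
  set H : En n → ℝ≥0∞ := fun w => (∫⁻ u in B, G (w + u))
    + (ENNReal.ofReal (1 / (2 * N)) * vB n) * cnt w with hH
  have hHi : ∫⁻ w, H w ≤ ENNReal.ofReal (3 / 8 * (2 * R) ^ n) * vB n := by
    rw [hH, lintegral_add_right _ (hcm.const_mul _), lintegral_const_mul _ hcm,
      lintegral_lintegral_swap hprod.aemeasurable]
    simp_rw [lintegral_add_right_eq_self]
    rw [setLIntegral_const, hGi, hci]
    have e : volume B = vB n := rfl
    rw [e]
    calc _ ≤ Xf.card * (ENNReal.ofReal (1 / (16 * θ) + exp (n * (r - 1))) * vB n) * vB n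
          + (ENNReal.ofReal (1 / (2 * N)) * vB n) *
            (Xf.card * (ENNReal.ofReal (2 ^ n) * vB n)) := by gcongr
      _ = (Xf.card * vB n) * (ENNReal.ofReal (1 / (16 * θ) + exp (n * (r - 1)))
            + ENNReal.ofReal (1 / (2 * N)) * ENNReal.ofReal (2 ^ n)) * vB n := by ring
      _ ≤ ENNReal.ofReal (2 * θ * (2 * R) ^ n) *
            (ENNReal.ofReal (1 / (16 * θ) + exp (n * (r - 1)))
            + ENNReal.ofReal (1 / (2 * N)) * ENNReal.ofReal (2 ^ n)) * vB n := by gcongr
      _ ≤ _ := by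
          rw [← ENNReal.ofReal_mul (by positivity),
            ← ENNReal.ofReal_add (by positivity) (by positivity),
            ← ENNReal.ofReal_mul (by positivity)]
          refine mul_le_mul_left (ENNReal.ofReal_le_ofReal ?_) _
          have a1 : 2 * θ * (1 / (16 * θ)) = 1 / 8 := by field_simp; norm_num
          have a2 : 2 * θ * (1 / (2 * N) * 2 ^ n) ≤ 1 / 8 := by
            have : 2 * θ * (1 / (2 * N) * 2 ^ n) = (θ * 2 ^ n) / N := by field_simp
            rw [this, div_le_iff₀ hN0]; linarith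
          have a3 : 0 ≤ (2 * R) ^ n := by positivity
          nlinarith
  obtain ⟨w, hw, hHw⟩ : ∃ w ∈ cube n R, H w < ENNReal.ofReal (1 / 2) * vB n := by
    by_contra hcon
    push Not at hcon
    have a1 : ENNReal.ofReal (1 / 2) * vB n * volume (cube n R) ≤ ∫⁻ w, H w := by
      rw [← setLIntegral_const]
      exact (setLIntegral_mono' (measurableSet_cube n R) hcon).trans
        (setLIntegral_le_lintegral _ _)
    rw [vol_cube n hR.le, mul_right_comm, ← ENNReal.ofReal_mul (by norm_num)] at a1
    have a2 := (ENNReal.mul_le_mul_iff_left (vB_ne_zero n) (vB_ne_top n)).1 (a1.trans hHi)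
    rw [ENNReal.ofReal_le_ofReal_iff (by positivity)] at a2
    have : 0 < (2 * R) ^ n := by positivity
    linarith
  set X2 := Xf.filter (fun x => ‖x - w‖ ≤ 2) with hX2
  refine ⟨w, hw, X2.image (· - w), card_image_le.trans ?_, fun y hy => ?_, fun x hx h => ?_, ?_⟩
  · have a1 : (ENNReal.ofReal (1 / (2 * N)) * vB n) * cnt w < ENNReal.ofReal (1 / 2) * vB n :=
      lt_of_le_of_lt le_add_self hHw
    have a2 : cnt w = ENNReal.ofReal X2.card := by
      rw [ENNReal.ofReal_natCast, hX2, card_filter, Nat.cast_sum]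
      refine sum_congr rfl fun x _ => ?_
      by_cases h : ‖x - w‖ ≤ 2
      · have : w ∈ closedBall x 2 := by rwa [mem_closedBall, dist_comm, dist_eq_norm]
        simp [Set.indicator, h, this]
      · have : w ∉ closedBall x 2 := by rwa [mem_closedBall, dist_comm, dist_eq_norm]
        simp [Set.indicator, h, this]
    rw [a2, mul_right_comm, ← ENNReal.ofReal_mul (by positivity),
      ENNReal.mul_lt_mul_iff_left (vB_ne_zero n) (vB_ne_top n),
      ENNReal.ofReal_lt_ofReal_iff (by norm_num)] at a1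
    have : (X2.card : ℝ) ≤ N := by
      have e : 1 / (2 * (N : ℝ)) * X2.card = X2.card / N / 2 := by field_simp
      rw [e] at a1
      have : (X2.card : ℝ) / N ≤ 1 := by linarith
      rwa [div_le_one hN0] at this
    exact_mod_cast this
  · obtain ⟨x, hx, rfl⟩ := mem_image.1 hy
    exact (mem_filter.1 hx).2
  · exact mem_image_of_mem _ (mem_filter.2 ⟨hx, h⟩)
  · have a1 : (∫⁻ u in B, G (w + u)) ≤ ENNReal.ofReal (1 / 2) * vB n :=
      le_trans le_self_add hHw.le
    refine le_trans ?_ a1
    have hm : Measurable fun u => G (w + u) := hGm.comp (by fun_prop)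
    have a2 := mul_meas_ge_le_lintegral (μ := volume.restrict B) hm 1
    rw [one_mul, Measure.restrict_apply (measurableSet_le measurable_const hm)] at a2
    refine le_trans (measure_mono ?_) a2
    rintro u ⟨hu, hu2⟩
    refine ⟨?_, hu⟩
    change 1 ≤ G (w + u)
    by_contra hlt
    rw [not_le] at hlt
    refine hu2 ⟨?_, fun y hy => ?_⟩
    · rw [sum_image fun a _ b _ h => sub_left_injective h]
      have b1 : ENNReal.ofReal (1 / (64 * θ)) *
          ∑ x ∈ X2, (kap (1 + η) (u - (x - w)) : ℝ≥0∞) ≤ G (w + u) := by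
        rw [mul_sum]
        refine le_trans (sum_le_sum fun x _ => ?_) (sum_le_sum_of_subset (filter_subset _ _))
        have : u - (x - w) = w + u - x := by abel
        rw [this]
        exact le_self_add
      have b2 := lt_of_le_of_lt b1 hlt
      rw [← Nat.cast_sum, ← ENNReal.ofReal_natCast, ← ENNReal.ofReal_mul (by positivity),
        ENNReal.ofReal_lt_one, one_div, inv_mul_lt_iff₀ (by positivity)] at b2
      push_cast at b2
      linarith
    · obtain ⟨x, hx, rfl⟩ := mem_image.1 hy
      by_contra h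
      have b1 : ψ (w + u - x) ≤ G (w + u) :=
        single_le_sum (f := fun x => ψ (w + u - x)) (fun _ _ => zero_le) (mem_filter.1 hx).1
      have b2 : 1 ≤ ψ (w + u - x) := by
        have e : u - (x - w) = w + u - x := by abel
        have : w + u - x ∈ closedBall (0 : En n) r := by
          rw [mem_closedBall, dist_zero_right, ← e]; linarith [not_le.1 h]
        simp only [hψ, Set.indicator_of_mem this, Pi.one_apply]
        exact le_add_self
      exact absurd (b2.trans b1) (not_le.2 hlt)

end Vale.Agent.P230
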